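import Vale.Agent.P125.Dich.Iter

set_option linter.unusedSectionVars false
set_option linter.unusedVariables false

/-! # P125, polynomial rate, path-free form: operator API (helper66) -/

namespace Vale.Agent.P125.P3266

open Vale.Agent.P125.Dich
open scoped BigOperators

variable {S : Type} [Fintype S] [DecidableEq S]

/-- application of a kernel to a function -/
def ap (R : Matrix S S ℝ) (g : S → ℝ) (x : S) : ℝ := ∑ y, R x y * g y

/-- integral against `μ` -/
def itg (μ : S → ℝ) (g : S → ℝ) : ℝ := ∑ x, μ x * g x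

lemma ap_mul (A B : Matrix S S ℝ) (g : S → ℝ) (x : S) : ap (A * B) g x = ap A (ap B g) x := by
  unfold ap
  simp only [Matrix.mul_apply, Finset.sum_mul, Finset.mul_sum]
  rw [Finset.sum_comm]
  refine Finset.sum_congr rfl fun y _ => Finset.sum_congr rfl fun z _ => by ring

lemma ap_one (g : S → ℝ) (x : S) : ap (1 : Matrix S S ℝ) g x = g x := by
  unfold ap
  simp [Matrix.one_apply]

lemma ap_pow_add (P : Matrix S S ℝ) (a b : ℕ) (g : S → ℝ) (x : S) :
    ap (P ^ (a + b)) g x = ap (P ^ a) (ap (P ^ b) g) x := by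
  rw [pow_add, ap_mul]

lemma ap_pow_succ (P : Matrix S S ℝ) (a : ℕ) (g : S → ℝ) (x : S) :
    ap (P ^ (a + 1)) g x = ap (P ^ a) (ap P g) x := by
  rw [pow_succ, ap_mul]

lemma ap_pow_succ' (P : Matrix S S ℝ) (a : ℕ) (g : S → ℝ) (x : S) :
    ap (P ^ (a + 1)) g x = ap P (ap (P ^ a) g) x := by
  rw [pow_succ', ap_mul]

lemma ap_add (R : Matrix S S ℝ) (g h : S → ℝ) (x : S) :
    ap R (fun y => g y + h y) x = ap R g x + ap R h x := by
  unfold ap
  rw [← Finset.sum_add_distrib]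
  exact Finset.sum_congr rfl fun y _ => by ring

lemma ap_sub (R : Matrix S S ℝ) (g h : S → ℝ) (x : S) :
    ap R (fun y => g y - h y) x = ap R g x - ap R h x := by
  unfold ap
  rw [← Finset.sum_sub_distrib]
  exact Finset.sum_congr rfl fun y _ => by ring

lemma ap_smul (R : Matrix S S ℝ) (c : ℝ) (g : S → ℝ) (x : S) :
    ap R (fun y => c * g y) x = c * ap R g x := by
  unfold ap
  rw [Finset.mul_sum]
  exact Finset.sum_congr rfl fun y _ => by ring

lemma ap_sum {ι : Type*} (R : Matrix S S ℝ) (s : Finset ι) (g : ι → S → ℝ) (x : S) :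
    ap R (fun y => ∑ i ∈ s, g i y) x = ∑ i ∈ s, ap R (g i) x := by
  unfold ap
  simp only [Finset.mul_sum]
  rw [Finset.sum_comm]

variable {μ : S → ℝ} {R : Matrix S S ℝ}

lemma ap_mono (h : IsChain μ R) {g k : S → ℝ} (hg : ∀ y, g y ≤ k y) (x : S) :
    ap R g x ≤ ap R k x :=
  Finset.sum_le_sum fun y _ => mul_le_mul_of_nonneg_left (hg y) (h.2.2.1 x y)

lemma ap_nonneg (h : IsChain μ R) {g : S → ℝ} (hg : ∀ y, 0 ≤ g y) (x : S) : 0 ≤ ap R g x :=
  Finset.sum_nonneg fun y _ => mul_nonneg (h.2.2.1 x y) (hg y)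

lemma ap_const (h : IsChain μ R) (c : ℝ) (x : S) : ap R (fun _ => c) x = c := by
  unfold ap
  rw [← Finset.sum_mul, h.2.2.2.1 x, one_mul]

lemma abs_ap_le (h : IsChain μ R) {g k : S → ℝ} (hg : ∀ y, |g y| ≤ k y) (x : S) :
    |ap R g x| ≤ ap R k x := by
  unfold ap
  refine (Finset.abs_sum_le_sum_abs _ _).trans (Finset.sum_le_sum fun y _ => ?_)
  rw [abs_mul, abs_of_nonneg (h.2.2.1 x y)]
  exact mul_le_mul_of_nonneg_left (hg y) (h.2.2.1 x y)

/-- self-adjointness -/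
lemma itg_ap_mul (h : IsChain μ R) (g k : S → ℝ) :
    itg μ (fun x => g x * ap R k x) = itg μ (fun x => ap R g x * k x) := by
  unfold itg ap
  simp only [Finset.mul_sum, Finset.sum_mul]
  rw [Finset.sum_comm]
  refine Finset.sum_congr rfl fun y _ => Finset.sum_congr rfl fun x _ => ?_
  have := h.2.2.2.2 x y
  calc μ x * (g x * (R x y * k y)) = (μ x * R x y) * (g x * k y) := by ring
    _ = (μ y * R y x) * (g x * k y) := by rw [this]
    _ = μ y * (R y x * g x * k y) := by ring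

/-- stationarity -/
lemma itg_ap (h : IsChain μ R) (g : S → ℝ) : itg μ (ap R g) = itg μ g := by
  have := itg_ap_mul h (fun _ => 1) g
  simp only [one_mul] at this
  rw [show itg μ (ap R g) = itg μ (fun x => ap R g x) from rfl, this]
  unfold itg
  refine Finset.sum_congr rfl fun x _ => ?_
  show μ x * (ap R (fun _ => 1) x * g x) = μ x * g x
  rw [ap_const h, one_mul]

lemma itg_mono (h : IsChain μ R) {g k : S → ℝ} (hg : ∀ y, g y ≤ k y) : itg μ g ≤ itg μ k :=
  Finset.sum_le_sum fun y _ => mul_le_mul_of_nonneg_left (hg y) (h.1 y)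

lemma itg_nonneg (h : IsChain μ R) {g : S → ℝ} (hg : ∀ y, 0 ≤ g y) : 0 ≤ itg μ g :=
  Finset.sum_nonneg fun y _ => mul_nonneg (h.1 y) (hg y)

lemma itg_add (μ : S → ℝ) (g k : S → ℝ) : itg μ (fun x => g x + k x) = itg μ g + itg μ k := by
  unfold itg
  rw [← Finset.sum_add_distrib]
  exact Finset.sum_congr rfl fun y _ => by ring

lemma itg_smul (μ : S → ℝ) (c : ℝ) (g : S → ℝ) : itg μ (fun x => c * g x) = c * itg μ g := by
  unfold itg
  rw [Finset.mul_sum]
  exact Finset.sum_congr rfl fun y _ => by ring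

lemma itg_sum {ι : Type*} (μ : S → ℝ) (s : Finset ι) (g : ι → S → ℝ) :
    itg μ (fun y => ∑ i ∈ s, g i y) = ∑ i ∈ s, itg μ (g i) := by
  unfold itg
  simp only [Finset.mul_sum]
  rw [Finset.sum_comm]

/-- general Cauchy-Schwarz with a pointwise product bound -/
lemma cs_gen {ι : Type*} (s : Finset ι) (m x A B : ι → ℝ) (hm : ∀ i, 0 ≤ m i)
    (hA : ∀ i, 0 ≤ A i) (hB : ∀ i, 0 ≤ B i) (h : ∀ i, x i ^ 2 ≤ A i * B i) :
    (∑ i ∈ s, m i * x i) ^ 2 ≤ (∑ i ∈ s, m i * A i) * ∑ i ∈ s, m i * B i := by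
  refine Finset.sum_sq_le_sum_mul_sum_of_sq_le_mul s (fun i _ => mul_nonneg (hm i) (hA i))
    (fun i _ => mul_nonneg (hm i) (hB i)) (fun i _ => ?_)
  have := mul_le_mul_of_nonneg_left (h i) (sq_nonneg (m i))
  nlinarith [this]

/-- Jensen -/
lemma ap_sq_le (h : IsChain μ R) (g : S → ℝ) (x : S) : ap R g x ^ 2 ≤ ap R (fun y => g y ^ 2) x := by
  have := cs_gen Finset.univ (fun y => R x y) g (fun _ => 1) (fun y => g y ^ 2) (h.2.2.1 x)
    (fun _ => zero_le_one) (fun y => sq_nonneg _) (fun y => by simp)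
  simp only [mul_one] at this
  rw [h.2.2.2.1 x, one_mul] at this
  exact this

lemma itg_cs (h : IsChain μ R) (x A B : S → ℝ) (hA : ∀ i, 0 ≤ A i) (hB : ∀ i, 0 ≤ B i)
    (hx : ∀ i, x i ^ 2 ≤ A i * B i) : itg μ x ^ 2 ≤ itg μ A * itg μ B :=
  cs_gen Finset.univ μ x A B h.1 hA hB hx

/-- `L_2` contraction -/
lemma itg_ap_sq_le (h : IsChain μ R) (g : S → ℝ) :
    itg μ (fun x => ap R g x ^ 2) ≤ itg μ (fun x => g x ^ 2) := by
  calc itg μ (fun x => ap R g x ^ 2) ≤ itg μ (ap R (fun y => g y ^ 2)) :=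
        itg_mono h (fun x => ap_sq_le h g x)
    _ = itg μ (fun x => g x ^ 2) := itg_ap h _

lemma sum_sq_le_card (τ : ℕ) (y : ℕ → ℝ) :
    (∑ i ∈ Finset.range τ, y i) ^ 2 ≤ τ * ∑ i ∈ Finset.range τ, y i ^ 2 := by
  have := @sq_sum_le_card_mul_sum_sq ℕ ℝ _ _ _ _ (Finset.range τ) y
  simpa using this

end Vale.Agent.P125.P3266
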