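import Vale.Agent.P125.P32.Defs58

set_option linter.unusedSectionVars false
set_option linter.unusedVariables false

/-!
# P125 Poly: the block step (Step 3) in the shape of `Defs58`
-/

namespace Vale.Agent.P125.P32

open scoped BigOperators
open Vale.Agent.P125.Dich

lemma av_sum_1 {S : Type} [Fintype S] {ι : Type} (μ : S → ℝ) (s : Finset ι) (g : ι → S → ℝ) :
    av μ (fun x => ∑ j ∈ s, g j x) = ∑ j ∈ s, av μ (g j) := by
  simp only [av, Finset.mul_sum]
  rw [Finset.sum_comm]

lemma av_smul_1 {S : Type} [Fintype S] (μ : S → ℝ) (c : ℝ) (g : S → ℝ) :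
    av μ (fun x => c * g x) = c * av μ g := by
  simp only [av, Finset.mul_sum]
  exact Finset.sum_congr rfl fun x _ => by ring

theorem stBlk_1 (hlib : StLib) (hs : StSmall) (h2 : StTriv2) (h3 : StSqrt) : StBlk := by
  intro S _ _ μ P hc hL n f τ J
  obtain ⟨om0, omsum, lb0, l20, avl2, avlb, U0, Fle, wsym, ellsym⟩ := hs S μ P hc hL n f
  have hcR : IsChain μ (P ^ τ) := isChain_pow hc τ
  have hLR : Lib μ (P ^ τ) := hlib S μ (P ^ τ) hcR
  have opR : ∀ j (g : S → ℝ), op (P ^ τ) j g = op P (τ * j) g := by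
    intro j g
    funext x
    simp only [op, pow_mul]
  have op0 : ∀ k (g : S → ℝ), (∀ y, 0 ≤ g y) → ∀ x, 0 ≤ op P k g x := by
    intro k g hg x
    exact Finset.sum_nonneg fun y _ => mul_nonneg (hL.pw_nonneg k x y) (hg y)
  set Vs : S → ℝ := fun z => (τ : ℝ) * ∑ i ∈ Finset.range τ, op P i (l2 P f) z with hVs
  set T : S → ℝ := fun b => ∑ j ∈ Finset.range J, op P (τ * j) Vs b with hT
  have hVs0 : ∀ z, 0 ≤ Vs z := fun z =>
    mul_nonneg (Nat.cast_nonneg _) (Finset.sum_nonneg fun i _ => op0 i _ l20 z)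
  have hT0 : ∀ b, 0 ≤ T b := fun b => Finset.sum_nonneg fun j _ => op0 _ _ hVs0 b
  have key : ∀ k b, Ak P f (τ * J) k b ≤ Real.sqrt (T b) +
      ∑ j ∈ Finset.range J, op P (τ * j) (fun z => |hh P f τ k z|) b := by
    intro k b
    have h := h3 S μ (P ^ τ) hcR hLR (F f k) J 0 b
    simp only [opR] at h
    have l1 : ∑ y, ((P ^ τ) ^ J) b y * |0 + F f k y - F f k b| = Ak P f (τ * J) k b := by
      unfold Ak
      rw [pow_mul]
      exact Finset.sum_congr rfl fun y _ => by rw [zero_add]
    rw [l1] at h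
    refine h.trans (add_le_add ?_ (le_of_eq ?_))
    · apply Real.sqrt_le_sqrt
      have : (0 : ℝ) ^ 2 = 0 := by norm_num
      rw [this, zero_add]
      exact Finset.sum_le_sum fun j _ => hL.op_mono _ _ _ (fun z => h2 S μ P hc hL n f k τ z) b
    · refine Finset.sum_congr rfl fun j _ => ?_
      congr 1
      funext z
      congr 1
      unfold hh op
      have : ∀ y, (P ^ τ) z y * (F f k y - F f k z) =
          (P ^ τ) z y * F f k y - F f k z * (P ^ τ) z y := fun y => by ring
      simp only [this]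
      rw [Finset.sum_sub_distrib, ← Finset.mul_sum, hL.pw_sum τ z, mul_one]
  have e1 : Qsum μ P f (τ * J) ≤ av μ (fun b => lbar P f b * Real.sqrt (T b)) +
      ∑ j ∈ Finset.range J, Rr μ P f τ (τ * j) := by
    have a1 : ∀ k, Qk μ P f (τ * J) k ≤ av μ (fun b => om P f k b * Real.sqrt (T b)) +
        ∑ j ∈ Finset.range J,
          av μ (fun b => om P f k b * op P (τ * j) (fun z => |hh P f τ k z|) b) := by
      intro k
      unfold Qk
      refine (hL.av_mono _ _
        (fun b => mul_le_mul_of_nonneg_left (key k b) (om0 k b))).trans (le_of_eq ?_)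
      rw [← av_sum_1]
      simp only [av, mul_add, Finset.sum_add_distrib, Finset.mul_sum]
    unfold Qsum
    refine (Finset.sum_le_sum fun k _ => a1 k).trans (le_of_eq ?_)
    rw [Finset.sum_add_distrib]
    congr 1
    · simp only [av]
      rw [Finset.sum_comm]
      refine Finset.sum_congr rfl fun b _ => ?_
      rw [← omsum b, Finset.sum_mul, Finset.mul_sum]
    · rw [Finset.sum_comm]
      rfl
  have e2 : av μ (fun b => lbar P f b * Real.sqrt (T b)) ≤ Real.sqrt J * τ * U μ P f := by
    refine (hL.av_cs _ _).trans ?_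
    have b0 : av μ Vs = (τ : ℝ) ^ 2 * U μ P f := by
      rw [hVs, av_smul_1, av_sum_1]
      simp only [hL.av_op, avl2]
      simp
      ring
    have b1 : av μ (fun x => Real.sqrt (T x) ^ 2) = J * (τ : ℝ) ^ 2 * U μ P f := by
      have : ∀ x, Real.sqrt (T x) ^ 2 = T x := fun x => Real.sq_sqrt (hT0 x)
      simp only [this]
      rw [hT, av_sum_1]
      simp only [hL.av_op, b0]
      simp
      ring
    rw [b1]
    calc Real.sqrt (av μ fun x => lbar P f x ^ 2) * Real.sqrt (J * (τ : ℝ) ^ 2 * U μ P f)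
        ≤ Real.sqrt (U μ P f) * Real.sqrt (J * (τ : ℝ) ^ 2 * U μ P f) :=
          mul_le_mul_of_nonneg_right (Real.sqrt_le_sqrt avlb) (Real.sqrt_nonneg _)
      _ = Real.sqrt J * τ * U μ P f := by
        rw [Real.sqrt_mul (by positivity), Real.sqrt_mul (by positivity),
          Real.sqrt_sq (by positivity)]
        have := Real.mul_self_sqrt U0
        calc Real.sqrt (U μ P f) * (Real.sqrt J * τ * Real.sqrt (U μ P f))
            = Real.sqrt J * τ * (Real.sqrt (U μ P f) * Real.sqrt (U μ P f)) := by ring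
          _ = Real.sqrt J * τ * U μ P f := by rw [this]
  linarith

end Vale.Agent.P125.P32
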