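import Vale.Agent.P125.P32.Defs58

set_option linter.unusedSectionVars false
set_option linter.unusedVariables false

/-! # P125 Poly: `StDual` (Step 4: duality, Dirichlet form, Abel summation) -/

namespace Vale.Agent.P125.P32

open scoped BigOperators
open Vale.Agent.P125.Dich

section aux51

variable {S : Type} [Fintype S] [DecidableEq S]

lemma av_sum_51 {ι : Type} (μ : S → ℝ) (s : Finset ι) (g : ι → S → ℝ) :
    av μ (fun x => ∑ i ∈ s, g i x) = ∑ i ∈ s, av μ (g i) := by
  unfold av
  simp only [Finset.mul_sum]
  rw [Finset.sum_comm]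

/-- Dirichlet form identity -/
lemma dirichlet_51 (μ : S → ℝ) (P : Matrix S S ℝ) (hc : IsChain μ P) (hL : Lib μ P)
    (M G : S → ℝ) :
    av μ (fun a => M a * (op P 1 G a - G a))
      = -(1 / 2) * ∑ a, ∑ b, μ a * P a b * ((M b - M a) * (G b - G a)) := by
  obtain ⟨c0, c1, c2, c3, c4⟩ := hc
  have e1 : ∀ a, op P 1 G a - G a = ∑ b, P a b * (G b - G a) := by
    intro a
    rw [hL.op_one]
    have : ∑ b, P a b * (G b - G a) = ∑ b, P a b * G b - (∑ b, P a b) * G a := by
      rw [Finset.sum_mul, ← Finset.sum_sub_distrib]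
      exact Finset.sum_congr rfl fun b _ => by ring
    rw [this, c3 a, one_mul]
  have e2 : av μ (fun a => M a * (op P 1 G a - G a))
      = ∑ a, ∑ b, μ a * P a b * (M a * (G b - G a)) := by
    unfold av
    refine Finset.sum_congr rfl fun a _ => ?_
    show μ a * (M a * (op P 1 G a - G a)) = _
    rw [e1 a, Finset.mul_sum, Finset.mul_sum]
    exact Finset.sum_congr rfl fun b _ => by ring
  have e3 : ∑ a, ∑ b, μ a * P a b * (M a * (G b - G a))
      = ∑ a, ∑ b, μ a * P a b * (M b * (G a - G b)) := by
    rw [Finset.sum_comm]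
    refine Finset.sum_congr rfl fun a _ => Finset.sum_congr rfl fun b _ => ?_
    rw [c4 b a]
  have e4 : ∑ a, ∑ b, μ a * P a b * ((M b - M a) * (G b - G a))
      = - (∑ a, ∑ b, μ a * P a b * (M a * (G b - G a)))
        - ∑ a, ∑ b, μ a * P a b * (M b * (G a - G b)) := by
    rw [← Finset.sum_neg_distrib, ← Finset.sum_sub_distrib]
    refine Finset.sum_congr rfl fun a _ => ?_
    rw [← Finset.sum_neg_distrib, ← Finset.sum_sub_distrib]
    exact Finset.sum_congr rfl fun b _ => by ring
  rw [e2, e4, ← e3]
  ring

end aux51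

theorem stDual_51 : StDual := by
  intro S _ _ μ P hc hL n f τ s
  -- steps 1-3 for each k
  have hk : ∀ k, av μ (fun b => om P f k b * op P s (fun z => |hh P f τ k z|) b)
      = av μ (fun a => Mk P f τ s k a * (op P 1 (F f k) a - F f k a)) := by
    intro k
    have e1 : av μ (fun b => om P f k b * op P s (fun z => |hh P f τ k z|) b)
        = av μ (fun z => op P s (om P f k) z * |hh P f τ k z|) := hL.av_adj s _ _
    have e2 : ∀ z, op P s (om P f k) z * |hh P f τ k z| = zt P f τ s k z * hh P f τ k z := by
      intro z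
      unfold zt
      have h1 : ((SignType.sign (hh P f τ k z) : SignType) : ℝ) * hh P f τ k z
          = |hh P f τ k z| := sign_mul_self _
      calc op P s (om P f k) z * |hh P f τ k z|
          = op P s (om P f k) z
            * (((SignType.sign (hh P f τ k z) : SignType) : ℝ) * hh P f τ k z) := by rw [h1]
        _ = _ := by ring
    have e3 : ∀ z, hh P f τ k z
        = ∑ i ∈ Finset.range τ, op P i (fun y => op P 1 (F f k) y - F f k y) z := by
      intro z
      have h2 : ∀ i, op P i (fun y => op P 1 (F f k) y - F f k y) z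
          = op P (i + 1) (F f k) z - op P i (F f k) z := by
        intro i
        rw [hL.op_sub i (op P 1 (F f k)) (F f k) z, hL.op_op]
      simp only [h2]
      rw [Finset.sum_range_sub (fun i => op P i (F f k) z)]
      unfold hh
      rw [hL.op_zero]
    rw [e1]
    simp only [e2]
    have e4 : av μ (fun z => zt P f τ s k z * hh P f τ k z)
        = ∑ i ∈ Finset.range τ, av μ (fun z => zt P f τ s k z
            * op P i (fun y => op P 1 (F f k) y - F f k y) z) := by
      rw [← av_sum_51]
      congr 1
      funext z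
      rw [e3 z, Finset.mul_sum]
    rw [e4]
    have e5 : ∀ i, av μ (fun z => zt P f τ s k z
            * op P i (fun y => op P 1 (F f k) y - F f k y) z)
        = av μ (fun z => op P i (zt P f τ s k) z * (op P 1 (F f k) z - F f k z)) :=
      fun i => hL.av_adj i _ _
    simp only [e5]
    rw [← av_sum_51]
    congr 1
    funext z
    unfold Mk
    rw [Finset.sum_mul]
  -- Dirichlet form
  have hR : Rr μ P f τ s = -(1 / 2) * ∑ a, ∑ b, μ a * P a b *
      ∑ k, (Mk P f τ s k b - Mk P f τ s k a) * (F f k b - F f k a) := by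
    unfold Rr
    simp only [hk]
    simp only [dirichlet_51 μ P hc hL]
    rw [← Finset.mul_sum]
    congr 1
    rw [Finset.sum_comm]
    refine Finset.sum_congr rfl fun a _ => ?_
    rw [Finset.sum_comm]
    refine Finset.sum_congr rfl fun b _ => ?_
    rw [Finset.mul_sum]
  -- Abel summation
  have hAbel : ∀ a b, ∑ k, (Mk P f τ s k b - Mk P f τ s k a) * (F f k b - F f k a)
      = ∑ j, (f b j - f a j) * (UU P f τ s j b - UU P f τ s j a) := by
    intro a b
    have l1 : ∀ k, F f k b - F f k a = ∑ i, if i ≤ k then (f b i - f a i) else 0 := by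
      intro k
      unfold F
      rw [← Finset.sum_sub_distrib]
      refine Finset.sum_congr rfl fun i _ => ?_
      split_ifs <;> simp
    have l2 : ∀ j, UU P f τ s j b - UU P f τ s j a
        = ∑ k, if j ≤ k then (Mk P f τ s k b - Mk P f τ s k a) else 0 := by
      intro j
      unfold UU
      rw [← Finset.sum_sub_distrib]
      refine Finset.sum_congr rfl fun i _ => ?_
      split_ifs <;> simp
    simp only [l1, l2, Finset.mul_sum]
    rw [Finset.sum_comm]
    refine Finset.sum_congr rfl fun j _ => Finset.sum_congr rfl fun k _ => ?_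
    split_ifs <;> ring
  rw [hR]
  simp only [hAbel]
  rw [neg_mul, ← mul_neg, ← Finset.sum_neg_distrib]
  apply mul_le_mul_of_nonneg_left _ (by norm_num)
  refine Finset.sum_le_sum fun a _ => ?_
  rw [← Finset.sum_neg_distrib]
  refine Finset.sum_le_sum fun b _ => ?_
  rw [← mul_neg]
  apply mul_le_mul_of_nonneg_left _ (mul_nonneg (hc.1 a) (hc.2.2.1 a b))
  rw [← Finset.sum_neg_distrib]
  refine Finset.sum_le_sum fun j _ => ?_
  unfold w
  calc -((f b j - f a j) * (UU P f τ s j b - UU P f τ s j a))
      ≤ |(f b j - f a j) * (UU P f τ s j b - UU P f τ s j a)| := neg_le_abs _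
    _ = |f b j - f a j| * |UU P f τ s j a - UU P f τ s j b| := by
        rw [abs_mul, abs_sub_comm (UU P f τ s j b)]

end Vale.Agent.P125.P32
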