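import Vale.Agent.P125.Dich.Iter

set_option linter.unusedSectionVars false
set_option linter.unusedVariables false

/-!
# P125, polynomial rate: the energy bound (step F) in matrix form

`(μ, P)` is a stationary reversible chain.  `T P i g = P ^ i` applied to `g`.
-/

namespace Vale.Agent.P125.P3230

open Vale.Agent.P125.Dich
open scoped BigOperators

variable {S : Type} [Fintype S] [DecidableEq S]

/-- `P ^ i` applied to a function -/
def T (P : Matrix S S ℝ) (i : ℕ) (g : S → ℝ) : S → ℝ := fun x => ∑ y, (P ^ i) x y * g y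

section Api

variable {μ : S → ℝ} {P : Matrix S S ℝ} (h : IsChain μ P)
include h

lemma pw_nonneg (i : ℕ) (x y : S) : 0 ≤ (P ^ i) x y := (isChain_pow h i).2.2.1 x y

lemma pw_sum (i : ℕ) (x : S) : ∑ y, (P ^ i) x y = 1 := (isChain_pow h i).2.2.2.1 x

lemma T_mono (i : ℕ) {g k : S → ℝ} (hgk : ∀ x, g x ≤ k x) (x : S) : T P i g x ≤ T P i k x :=
  Finset.sum_le_sum fun y _ => mul_le_mul_of_nonneg_left (hgk y) (pw_nonneg h i x y)

lemma T_nonneg (i : ℕ) {g : S → ℝ} (hg : ∀ x, 0 ≤ g x) (x : S) : 0 ≤ T P i g x :=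
  Finset.sum_nonneg fun y _ => mul_nonneg (pw_nonneg h i x y) (hg y)

lemma T_abs_le (i : ℕ) {g k : S → ℝ} (hgk : ∀ x, |g x| ≤ k x) (x : S) :
    |T P i g x| ≤ T P i k x := by
  unfold T
  refine (Finset.abs_sum_le_sum_abs _ _).trans (Finset.sum_le_sum fun y _ => ?_)
  rw [abs_mul, abs_of_nonneg (pw_nonneg h i x y)]
  exact mul_le_mul_of_nonneg_left (hgk y) (pw_nonneg h i x y)

lemma T_const (i : ℕ) (c : ℝ) (x : S) : T P i (fun _ => c) x = c := by
  unfold T
  rw [← Finset.sum_mul, pw_sum h i x, one_mul]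

/-- stationarity -/
lemma stat (i : ℕ) (g : S → ℝ) : ∑ x, μ x * T P i g x = ∑ x, μ x * g x := by
  obtain ⟨h1, h2, h3, h4, h5⟩ := isChain_pow h i
  unfold T
  simp_rw [Finset.mul_sum]
  rw [Finset.sum_comm]
  refine Finset.sum_congr rfl fun y _ => ?_
  calc ∑ x, μ x * ((P ^ i) x y * g y) = ∑ x, μ y * (P ^ i) y x * g y := by
        refine Finset.sum_congr rfl fun x _ => ?_
        rw [← mul_assoc, h5 x y]
    _ = μ y * g y := by
        rw [← Finset.sum_mul, ← Finset.mul_sum, h4 y, mul_one]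

/-- Jensen -/
lemma T_sq_le (i : ℕ) (g : S → ℝ) (x : S) : T P i g x ^ 2 ≤ T P i (fun y => g y ^ 2) x := by
  have hs := pw_sum h i x
  have key : 0 ≤ ∑ y, (P ^ i) x y * (g y - T P i g x) ^ 2 :=
    Finset.sum_nonneg fun y _ => mul_nonneg (pw_nonneg h i x y) (sq_nonneg _)
  have e : ∑ y, (P ^ i) x y * (g y - T P i g x) ^ 2
      = T P i (fun y => g y ^ 2) x - T P i g x ^ 2 := by
    have e1 : ∀ y, (P ^ i) x y * (g y - T P i g x) ^ 2
        = (P ^ i) x y * g y ^ 2 - 2 * T P i g x * ((P ^ i) x y * g y)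
          + T P i g x ^ 2 * (P ^ i) x y := fun y => by ring
    simp_rw [e1]
    rw [Finset.sum_add_distrib, Finset.sum_sub_distrib, ← Finset.mul_sum, ← Finset.mul_sum, hs]
    have : ∑ y, (P ^ i) x y * g y = T P i g x := rfl
    rw [this]
    unfold T
    ring
  linarith

/-- `L_2` contraction -/
lemma T_l2 (i : ℕ) (g : S → ℝ) : ∑ x, μ x * T P i g x ^ 2 ≤ ∑ x, μ x * g x ^ 2 := by
  rw [← stat h i (fun y => g y ^ 2)]
  exact Finset.sum_le_sum fun x _ => mul_le_mul_of_nonneg_left (T_sq_le h i g x) (h.1 x)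

end Api

lemma T_T (P : Matrix S S ℝ) (i j : ℕ) (g : S → ℝ) : T P i (T P j g) = T P (i + j) g := by
  funext x
  unfold T
  simp_rw [pow_add, Matrix.mul_apply, Finset.mul_sum, Finset.sum_mul]
  rw [Finset.sum_comm]
  refine Finset.sum_congr rfl fun y _ => Finset.sum_congr rfl fun z _ => ?_
  ring

lemma T_add (P : Matrix S S ℝ) (i : ℕ) (g k : S → ℝ) (x : S) :
    T P i (fun y => g y + k y) x = T P i g x + T P i k x := by
  unfold T
  rw [← Finset.sum_add_distrib]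
  exact Finset.sum_congr rfl fun y _ => by ring

lemma T_sub (P : Matrix S S ℝ) (i : ℕ) (g k : S → ℝ) (x : S) :
    T P i (fun y => g y - k y) x = T P i g x - T P i k x := by
  unfold T
  rw [← Finset.sum_sub_distrib]
  exact Finset.sum_congr rfl fun y _ => by ring

lemma T_smul (P : Matrix S S ℝ) (i : ℕ) (c : ℝ) (g : S → ℝ) (x : S) :
    T P i (fun y => c * g y) x = c * T P i g x := by
  unfold T
  rw [Finset.mul_sum]
  exact Finset.sum_congr rfl fun y _ => by ring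

lemma T_sum {ι : Type*} (P : Matrix S S ℝ) (i : ℕ) (s : Finset ι) (g : ι → S → ℝ) (x : S) :
    T P i (fun y => ∑ j ∈ s, g j y) x = ∑ j ∈ s, T P i (g j) x := by
  unfold T
  simp_rw [Finset.mul_sum]
  rw [Finset.sum_comm]

lemma T_zero (P : Matrix S S ℝ) (g : S → ℝ) : T P 0 g = g := by
  funext x
  unfold T
  simp [Matrix.one_apply]

lemma T_one (P : Matrix S S ℝ) (g : S → ℝ) (x : S) : T P 1 g x = ∑ y, P x y * g y := by
  unfold T
  rw [pow_one]

/-- the Cesaro mean `(1/τ) ∑_{i<τ} P^i g` -/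
noncomputable def A (P : Matrix S S ℝ) (τ : ℕ) (g : S → ℝ) : S → ℝ :=
  fun x => (1 / (τ : ℝ)) * ∑ i ∈ Finset.range τ, T P i g x

/-- one step energy of `v` at `a` -/
def Gam (P : Matrix S S ℝ) (v : S → ℝ) : S → ℝ := fun a => ∑ b, P a b * (v b - v a) ^ 2

/-- one step absolute gradient of `v` at `a` -/
def gr (P : Matrix S S ℝ) (v : S → ℝ) : S → ℝ := fun a => ∑ b, P a b * |v b - v a|

/-- the uniform energy bound, depending only on the envelope `L` -/
noncomputable def EnS (P : Matrix S S ℝ) (s τ : ℕ) (L : S → ℝ) : S → ℝ := fun z =>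
  T P (s + τ) (fun y => A P τ L y ^ 2) z
    + (2 / (τ : ℝ)) * ∑ i ∈ Finset.range τ, T P (s + i) (fun y => A P τ L y * (T P τ L y + L y)) z

section Main

variable {μ : S → ℝ} {P : Matrix S S ℝ} (h : IsChain μ P)
include h

/-- (F1) -/
lemma Gam_eq (v : S → ℝ) (a : S) :
    Gam P v a = T P 1 (fun y => v y ^ 2) a - v a ^ 2 - 2 * (v a * (T P 1 v a - v a)) := by
  have hs : ∑ b, P a b = 1 := h.2.2.2.1 a
  rw [T_one, T_one]
  unfold Gam
  have e1 : ∀ b, P a b * (v b - v a) ^ 2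
      = P a b * v b ^ 2 - 2 * v a * (P a b * v b) + v a ^ 2 * P a b := fun b => by ring
  simp_rw [e1]
  rw [Finset.sum_add_distrib, Finset.sum_sub_distrib, ← Finset.mul_sum, ← Finset.mul_sum, hs]
  ring

lemma gr_sq_le (v : S → ℝ) (a : S) : gr P v a ^ 2 ≤ Gam P v a := by
  have := T_sq_le h 1 (fun b => |v b - v a|) a
  rw [T_one, T_one] at this
  simpa [gr, Gam, sq_abs] using this

lemma Gam_nonneg (v : S → ℝ) (a : S) : 0 ≤ Gam P v a :=
  Finset.sum_nonneg fun b _ => mul_nonneg (h.2.2.1 a b) (sq_nonneg _)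

/-- telescoping form of (F1) -/
lemma sum_T_Gam (v : S → ℝ) (s τ : ℕ) (z : S) :
    ∑ i ∈ Finset.range τ, T P (s + i) (Gam P v) z
      = T P (s + τ) (fun y => v y ^ 2) z - T P s (fun y => v y ^ 2) z
        - 2 * ∑ i ∈ Finset.range τ, T P (s + i) (fun y => v y * (T P 1 v y - v y)) z := by
  have e : ∀ i, T P (s + i) (Gam P v) z
      = (T P (s + (i + 1)) (fun y => v y ^ 2) z - T P (s + i) (fun y => v y ^ 2) z)
        - 2 * T P (s + i) (fun y => v y * (T P 1 v y - v y)) z := by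
    intro i
    have e0 : Gam P v = fun a => (T P 1 (fun y => v y ^ 2) a - v a ^ 2)
        - 2 * (v a * (T P 1 v a - v a)) := by
      funext a
      exact Gam_eq h v a
    rw [e0, T_sub, T_sub, T_smul]
    have e2 : T P (s + i) (fun y => T P 1 (fun y => v y ^ 2) y) z
        = T P (s + (i + 1)) (fun y => v y ^ 2) z := by
      have := congrFun (T_T P (s + i) 1 (fun y => v y ^ 2)) z
      rw [← add_assoc]
      exact this
    rw [e2]
  simp_rw [e]
  rw [Finset.sum_sub_distrib, ← Finset.mul_sum,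
    Finset.sum_range_sub (fun i => T P (s + i) (fun y => v y ^ 2) z) τ]
  simp

lemma A_abs_le (τ : ℕ) {φ L : S → ℝ} (hφ : ∀ x, |φ x| ≤ L x) (x : S) :
    |A P τ φ x| ≤ A P τ L x := by
  unfold A
  rw [abs_mul, abs_of_nonneg (by positivity : (0 : ℝ) ≤ 1 / (τ : ℝ))]
  apply mul_le_mul_of_nonneg_left _ (by positivity)
  exact (Finset.abs_sum_le_sum_abs _ _).trans
    (Finset.sum_le_sum fun i _ => T_abs_le h i hφ x)

/-- `P (A φ) - A φ = (P^τ φ - φ)/τ` -/
lemma T_one_A_sub (τ : ℕ) (φ : S → ℝ) (x : S) :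
    T P 1 (A P τ φ) x - A P τ φ x = (1 / (τ : ℝ)) * (T P τ φ x - φ x) := by
  have e1 : T P 1 (A P τ φ) x = (1 / (τ : ℝ)) * ∑ i ∈ Finset.range τ, T P (i + 1) φ x := by
    unfold A
    rw [T_smul, T_sum]
    congr 1
    refine Finset.sum_congr rfl fun i _ => ?_
    have := congrFun (T_T P 1 i φ) x
    rw [add_comm 1 i] at this
    exact this
  rw [e1]
  unfold A
  rw [← mul_sub, ← Finset.sum_sub_distrib, Finset.sum_range_sub (fun i => T P i φ x) τ, T_zero]

/-- (F2): the energy of `v = A φ` along `τ` steps is bounded uniformly in `φ`, `|φ| ≤ L` -/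
theorem sum_T_Gam_le (s τ : ℕ) {φ L : S → ℝ} (hφ : ∀ x, |φ x| ≤ L x) (z : S) :
    ∑ i ∈ Finset.range τ, T P (s + i) (Gam P (A P τ φ)) z ≤ EnS P s τ L z := by
  rw [sum_T_Gam h]
  set v := A P τ φ with hv
  have hvL : ∀ y, |v y| ≤ A P τ L y := fun y => A_abs_le h τ hφ y
  have h1 : T P (s + τ) (fun y => v y ^ 2) z ≤ T P (s + τ) (fun y => A P τ L y ^ 2) z := by
    apply T_mono h
    intro y
    have := hvL y
    rw [← sq_abs (v y)]
    exact pow_le_pow_left₀ (abs_nonneg _) this 2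
  have h2 : 0 ≤ T P s (fun y => v y ^ 2) z := T_nonneg h s (fun y => sq_nonneg _) z
  have h3 : ∀ i ∈ Finset.range τ, - T P (s + i) (fun y => v y * (T P 1 v y - v y)) z
      ≤ (1 / (τ : ℝ)) * T P (s + i) (fun y => A P τ L y * (T P τ L y + L y)) z := by
    intro i _
    rw [← T_smul]
    have hb : ∀ y, |v y * (T P 1 v y - v y)|
        ≤ (1 / (τ : ℝ)) * (A P τ L y * (T P τ L y + L y)) := by
      intro y
      rw [hv, T_one_A_sub h τ φ y, ← hv, abs_mul, abs_mul,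
        abs_of_nonneg (by positivity : (0 : ℝ) ≤ 1 / (τ : ℝ))]
      have hA0 : 0 ≤ A P τ L y := (abs_nonneg _).trans (hvL y)
      have h4 : |T P τ φ y - φ y| ≤ T P τ L y + L y := by
        have := abs_sub (T P τ φ y) (φ y)
        have h5 := T_abs_le h τ hφ y
        have h6 := hφ y
        linarith
      calc |v y| * (1 / (τ : ℝ) * |T P τ φ y - φ y|)
          = (1 / (τ : ℝ)) * (|v y| * |T P τ φ y - φ y|) := by ring
        _ ≤ (1 / (τ : ℝ)) * (A P τ L y * (T P τ L y + L y)) := by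
            apply mul_le_mul_of_nonneg_left _ (by positivity)
            exact mul_le_mul (hvL y) h4 (abs_nonneg _) hA0
    have := T_abs_le h (s + i) hb z
    exact (neg_le_abs _).trans this
  have h4 := Finset.sum_le_sum h3
  rw [Finset.sum_neg_distrib, ← Finset.mul_sum] at h4
  unfold EnS
  have e : (2 / (τ : ℝ)) * ∑ i ∈ Finset.range τ,
      T P (s + i) (fun y => A P τ L y * (T P τ L y + L y)) z
      = 2 * ((1 / (τ : ℝ)) * ∑ i ∈ Finset.range τ,
        T P (s + i) (fun y => A P τ L y * (T P τ L y + L y)) z) := by ring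
  rw [e]
  linarith

/-- `(∑_{i<τ} a_i)^2 ≤ τ ∑ a_i^2` -/
lemma sq_sum_range_le (τ : ℕ) (a : ℕ → ℝ) :
    (∑ i ∈ Finset.range τ, a i) ^ 2 ≤ (τ : ℝ) * ∑ i ∈ Finset.range τ, a i ^ 2 := by
  have := sq_sum_le_card_mul_sum_sq (s := Finset.range τ) (f := a)
  simpa using this

lemma A_sq_le (τ : ℕ) (hτ : 1 ≤ τ) (g : S → ℝ) (x : S) :
    A P τ g x ^ 2 ≤ (1 / (τ : ℝ)) * ∑ i ∈ Finset.range τ, T P i g x ^ 2 := by
  have hτ0 : (0 : ℝ) < τ := by exact_mod_cast hτ
  unfold A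
  rw [mul_pow]
  have := sq_sum_range_le h τ (fun i => T P i g x)
  calc (1 / (τ : ℝ)) ^ 2 * (∑ i ∈ Finset.range τ, T P i g x) ^ 2
      ≤ (1 / (τ : ℝ)) ^ 2 * ((τ : ℝ) * ∑ i ∈ Finset.range τ, T P i g x ^ 2) :=
        mul_le_mul_of_nonneg_left this (by positivity)
    _ = (1 / (τ : ℝ)) * ∑ i ∈ Finset.range τ, T P i g x ^ 2 := by
        field_simp

lemma A_l2 (τ : ℕ) (hτ : 1 ≤ τ) (g : S → ℝ) :
    ∑ x, μ x * A P τ g x ^ 2 ≤ ∑ x, μ x * g x ^ 2 := by
  have hτ0 : (0 : ℝ) < τ := by exact_mod_cast hτ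
  calc ∑ x, μ x * A P τ g x ^ 2
      ≤ ∑ x, μ x * ((1 / (τ : ℝ)) * ∑ i ∈ Finset.range τ, T P i g x ^ 2) :=
        Finset.sum_le_sum fun x _ => mul_le_mul_of_nonneg_left (A_sq_le h τ hτ g x) (h.1 x)
    _ = (1 / (τ : ℝ)) * ∑ i ∈ Finset.range τ, ∑ x, μ x * T P i g x ^ 2 := by
        rw [Finset.sum_comm, Finset.mul_sum]
        refine Finset.sum_congr rfl fun x _ => ?_
        rw [Finset.mul_sum, Finset.mul_sum, Finset.mul_sum]
        exact Finset.sum_congr rfl fun i _ => by ring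
    _ ≤ (1 / (τ : ℝ)) * ∑ i ∈ Finset.range τ, ∑ x, μ x * g x ^ 2 := by
        apply mul_le_mul_of_nonneg_left _ (by positivity)
        exact Finset.sum_le_sum fun i _ => T_l2 h i g
    _ = ∑ x, μ x * g x ^ 2 := by
        rw [Finset.sum_const, Finset.card_range, nsmul_eq_mul]
        field_simp

/-- (F3) -/
theorem sum_EnS_le (s τ : ℕ) (hτ : 1 ≤ τ) (L : S → ℝ) :
    ∑ z, μ z * EnS P s τ L z ≤ 5 * ∑ x, μ x * L x ^ 2 := by
  have hτ0 : (0 : ℝ) < τ := by exact_mod_cast hτ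
  set N : ℝ := ∑ x, μ x * L x ^ 2 with hN
  have hA := A_l2 h τ hτ L
  have hT := T_l2 h τ L
  have hcross : ∑ x, μ x * (A P τ L x * (T P τ L x + L x)) ≤ 2 * N := by
    have hp : ∀ x, μ x * (A P τ L x * (T P τ L x + L x))
        ≤ μ x * A P τ L x ^ 2 + (1 / 2) * (μ x * T P τ L x ^ 2) + (1 / 2) * (μ x * L x ^ 2) := by
      intro x
      have h1 : A P τ L x * (T P τ L x + L x)
          ≤ A P τ L x ^ 2 + (1 / 2) * T P τ L x ^ 2 + (1 / 2) * L x ^ 2 := by
        nlinarith [sq_nonneg (A P τ L x - T P τ L x), sq_nonneg (A P τ L x - L x)]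
      have := mul_le_mul_of_nonneg_left h1 (h.1 x)
      linarith
    have := Finset.sum_le_sum fun x (_ : x ∈ Finset.univ) => hp x
    rw [Finset.sum_add_distrib, Finset.sum_add_distrib, ← Finset.mul_sum, ← Finset.mul_sum] at this
    linarith
  have e0 : ∑ z, μ z * EnS P s τ L z
      = ∑ z, μ z * T P (s + τ) (fun y => A P τ L y ^ 2) z
        + ∑ z, μ z * ((2 / (τ : ℝ)) * ∑ i ∈ Finset.range τ,
          T P (s + i) (fun y => A P τ L y * (T P τ L y + L y)) z) := by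
    unfold EnS
    rw [← Finset.sum_add_distrib]
    exact Finset.sum_congr rfl fun z _ => mul_add _ _ _
  rw [e0, stat h (s + τ) (fun y => A P τ L y ^ 2)]
  have e2 : ∑ z, μ z * ((2 / (τ : ℝ)) * ∑ i ∈ Finset.range τ,
      T P (s + i) (fun y => A P τ L y * (T P τ L y + L y)) z)
      = (2 / (τ : ℝ)) * ∑ i ∈ Finset.range τ,
        ∑ z, μ z * T P (s + i) (fun y => A P τ L y * (T P τ L y + L y)) z := by
    rw [Finset.sum_comm, Finset.mul_sum]
    refine Finset.sum_congr rfl fun x _ => ?_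
    rw [Finset.mul_sum, Finset.mul_sum, Finset.mul_sum]
    exact Finset.sum_congr rfl fun i _ => by ring
  rw [e2]
  simp_rw [stat h _ (fun y => A P τ L y * (T P τ L y + L y))]
  rw [Finset.sum_const, Finset.card_range, nsmul_eq_mul]
  have e3 : (2 / (τ : ℝ)) * ((τ : ℝ) * ∑ x, μ x * (A P τ L x * (T P τ L x + L x)))
      = 2 * ∑ x, μ x * (A P τ L x * (T P τ L x + L x)) := by
    field_simp
  rw [e3]
  linarith

/-- (E2): Jensen part of step (E) -/
theorem sq_sum_T_gr_le (s τ : ℕ) {φ L : S → ℝ} (hφ : ∀ x, |φ x| ≤ L x) (z : S) :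
    (∑ i ∈ Finset.range τ, T P (s + i) (gr P (A P τ φ)) z) ^ 2 ≤ (τ : ℝ) * EnS P s τ L z := by
  refine (sq_sum_range_le h τ _).trans ?_
  apply mul_le_mul_of_nonneg_left _ (Nat.cast_nonneg τ)
  refine le_trans ?_ (sum_T_Gam_le h s τ hφ z)
  refine Finset.sum_le_sum fun i _ => ?_
  refine (T_sq_le h (s + i) _ z).trans ?_
  exact T_mono h (s + i) (fun y => gr_sq_le h _ y) z

lemma EnS_nonneg (s τ : ℕ) {L : S → ℝ} (hL : ∀ x, 0 ≤ L x) (z : S) : 0 ≤ EnS P s τ L z := by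
  unfold EnS
  have hA : ∀ y, 0 ≤ A P τ L y := by
    intro y
    unfold A
    exact mul_nonneg (by positivity) (Finset.sum_nonneg fun i _ => T_nonneg h i hL y)
  apply add_nonneg (T_nonneg h _ (fun y => sq_nonneg _) z)
  apply mul_nonneg (by positivity)
  refine Finset.sum_nonneg fun i _ => T_nonneg h _ (fun y => ?_) z
  exact mul_nonneg (hA y) (add_nonneg (T_nonneg h τ hL y) (hL y))

end Main

end Vale.Agent.P125.P3230
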