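import Vale.Agent.P125.P32.Defs58
import Vale.Agent.P125.P32.StepF_30

set_option linter.unusedSectionVars false
set_option linter.unusedVariables false

/-! # P125 Poly: statement EN (Step 7, pointwise) -/

namespace Vale.Agent.P125.P32

open scoped BigOperators
open Vale.Agent.P125.Dich Vale.Agent.P125.P3230

namespace En30

variable {S : Type} [Fintype S] [DecidableEq S]

/-- the plain sum `∑_{i<τ} P^i g` -/
def Sm (P : Matrix S S ℝ) (τ : ℕ) (g : S → ℝ) : S → ℝ :=
  fun x => ∑ i ∈ Finset.range τ, T P i g x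

variable {μ : S → ℝ} {P : Matrix S S ℝ} (h : IsChain μ P)
include h

lemma Sm_abs_le (τ : ℕ) {φ L : S → ℝ} (hφ : ∀ x, |φ x| ≤ L x) (x : S) :
    |Sm P τ φ x| ≤ Sm P τ L x :=
  (Finset.abs_sum_le_sum_abs _ _).trans (Finset.sum_le_sum fun i _ => T_abs_le h i hφ x)

lemma T_one_Sm_sub (τ : ℕ) (φ : S → ℝ) (x : S) :
    T P 1 (Sm P τ φ) x - Sm P τ φ x = T P τ φ x - φ x := by
  have e1 : T P 1 (Sm P τ φ) x = ∑ i ∈ Finset.range τ, T P (i + 1) φ x := by
    unfold Sm
    rw [T_sum]
    refine Finset.sum_congr rfl fun i _ => ?_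
    have := congrFun (T_T P 1 i φ) x
    rw [add_comm 1 i] at this
    exact this
  rw [e1]
  unfold Sm
  rw [← Finset.sum_sub_distrib, Finset.sum_range_sub (fun i => T P i φ x) τ, T_zero]

theorem sum_T_Gam_Sm_le (s τ : ℕ) {φ L : S → ℝ} (hφ : ∀ x, |φ x| ≤ L x) (z : S) :
    ∑ i ∈ Finset.range τ, T P (s + i) (Gam P (Sm P τ φ)) z ≤
      T P (s + τ) (fun y => Sm P τ L y ^ 2) z
        + 2 * ∑ i ∈ Finset.range τ, T P (s + i) (fun y => Sm P τ L y * (T P τ L y + L y)) z := by
  rw [sum_T_Gam h]
  set v := Sm P τ φ with hv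
  have hvL : ∀ y, |v y| ≤ Sm P τ L y := fun y => Sm_abs_le h τ hφ y
  have h1 : T P (s + τ) (fun y => v y ^ 2) z ≤ T P (s + τ) (fun y => Sm P τ L y ^ 2) z := by
    apply T_mono h
    intro y
    have := hvL y
    rw [← sq_abs (v y)]
    exact pow_le_pow_left₀ (abs_nonneg _) this 2
  have h2 : 0 ≤ T P s (fun y => v y ^ 2) z := T_nonneg h s (fun y => sq_nonneg _) z
  have h3 : ∀ i ∈ Finset.range τ, - T P (s + i) (fun y => v y * (T P 1 v y - v y)) z
      ≤ T P (s + i) (fun y => Sm P τ L y * (T P τ L y + L y)) z := by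
    intro i _
    have hb : ∀ y, |v y * (T P 1 v y - v y)| ≤ Sm P τ L y * (T P τ L y + L y) := by
      intro y
      rw [hv, T_one_Sm_sub h τ φ y, ← hv, abs_mul]
      have hA0 : 0 ≤ Sm P τ L y := (abs_nonneg _).trans (hvL y)
      have h4 : |T P τ φ y - φ y| ≤ T P τ L y + L y := by
        have := abs_sub (T P τ φ y) (φ y)
        have h5 := T_abs_le h τ hφ y
        have h6 := hφ y
        linarith
      exact mul_le_mul (hvL y) h4 (abs_nonneg _) hA0
    have := T_abs_le h (s + i) hb z
    exact (neg_le_abs _).trans this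
  have h4 := Finset.sum_le_sum h3
  rw [Finset.sum_neg_distrib] at h4
  linarith

end En30

open En30 in
theorem stEn_30 : StEn := by
  intro S _ _ μ P hc _ n f τ s k y
  -- the envelope
  set φ : S → ℝ := fun z => ∑ k', if k ≤ k' then zt P f τ s k' z else 0 with hφdef
  have hom0 : ∀ k' z, 0 ≤ om P f k' z := fun k' z =>
    Finset.sum_nonneg fun x _ => mul_nonneg (hc.2.2.1 z x) (abs_nonneg _)
  have hzt : ∀ k' z, |zt P f τ s k' z| ≤ T P s (om P f k') z := by
    intro k' z
    unfold zt
    rw [abs_mul]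
    have h1 : |((SignType.sign (hh P f τ k' z) : SignType) : ℝ)| ≤ 1 := by
      rcases SignType.trichotomy (SignType.sign (hh P f τ k' z)) with h | h | h <;> simp [h]
    have h2 : 0 ≤ op P s (om P f k') z := T_nonneg hc s (hom0 k') z
    rw [abs_of_nonneg h2]
    calc _ ≤ 1 * op P s (om P f k') z := mul_le_mul_of_nonneg_right h1 h2
      _ = T P s (om P f k') z := by rw [one_mul]; rfl
  have hlbar : ∀ z, ∑ k', om P f k' z = lbar P f z := by
    intro z
    unfold om lbar ell
    rw [Finset.sum_comm]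
    exact Finset.sum_congr rfl fun x _ => by rw [Finset.mul_sum]
  have hφ : ∀ z, |φ z| ≤ LL P f s z := by
    intro z
    have e : LL P f s z = ∑ k', T P s (om P f k') z := by
      have : LL P f s z = T P s (fun z => ∑ k' ∈ Finset.univ, om P f k' z) z := by
        unfold LL
        have : lbar P f = fun z => ∑ k' ∈ Finset.univ, om P f k' z := by
          funext z; exact (hlbar z).symm
        rw [this]; rfl
      rw [this, T_sum]
    rw [e]
    refine (Finset.abs_sum_le_sum_abs _ _).trans (Finset.sum_le_sum fun k' _ => ?_)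
    split_ifs
    · exact hzt k' z
    · rw [abs_zero]; exact T_nonneg hc s (hom0 k') z
  have hUU : UU P f τ s k = Sm P τ φ := by
    funext x
    unfold UU Mk Sm
    have e1 : ∀ i, T P i φ x = ∑ k', if k ≤ k' then op P i (zt P f τ s k') x else 0 := by
      intro i
      rw [hφdef, T_sum]
      refine Finset.sum_congr rfl fun k' _ => ?_
      split_ifs
      · rfl
      · unfold T; simp
    simp_rw [e1]
    rw [Finset.sum_comm]
    refine Finset.sum_congr rfl fun k' _ => ?_
    split_ifs
    · rfl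
    · simp
  have heps : epsk P f τ s k = Gam P (Sm P τ φ) := by
    funext a
    unfold epsk Gam
    rw [hUU]
  have key := sum_T_Gam_Sm_le hc s τ hφ y
  rw [heps]
  have e2 : ∑ i ∈ Finset.range τ, op P (i + s) (Gam P (Sm P τ φ)) y
      = ∑ i ∈ Finset.range τ, T P (s + i) (Gam P (Sm P τ φ)) y :=
    Finset.sum_congr rfl fun i _ => by rw [add_comm]; rfl
  rw [e2]
  refine key.trans (le_of_eq ?_)
  unfold BB
  congr 1
  congr 1
  exact Finset.sum_congr rfl fun i _ => by rw [add_comm]; rfl

end Vale.Agent.P125.P32
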