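import Vale.Agent.P125.P32.Defs58
import Vale.Agent.P125.P32.Api_66

set_option linter.unusedSectionVars false
set_option linter.unusedVariables false

/-! # P125 Poly: StLib (helper66) -/

namespace Vale.Agent.P125.P32

open scoped BigOperators
open Vale.Agent.P125.Dich
open Vale.Agent.P125.P3266

theorem stLib_66 : StLib := by
  intro S _ _ μ P h
  have hk : ∀ k, IsChain μ (P ^ k) := fun k => isChain_pow h k
  have e : ∀ k (g : S → ℝ), op P k g = ap (P ^ k) g := fun k g => rfl
  have ea : ∀ g : S → ℝ, av μ g = itg μ g := fun g => rfl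
  refine
    { mu_nonneg := h.1
      mu_sum := h.2.1
      pw_nonneg := fun k => (hk k).2.2.1
      pw_sum := fun k => (hk k).2.2.2.1
      pw_rev := fun k => (hk k).2.2.2.2
      pw_add := fun a b x y => by rw [pow_add, Matrix.mul_apply]
      op_zero := fun g => by
        funext x
        rw [e, pow_zero, ap_one]
      op_one := fun g x => by
        rw [e, pow_one]; rfl
      op_op := fun a b g => by
        funext x
        rw [e, e, e, ap_pow_add]
      op_mono := fun k g h' hg x => ap_mono (hk k) hg x
      op_add := fun k g h' x => ap_add _ _ _ _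
      op_sub := fun k g h' x => ap_sub _ _ _ _
      op_smul := fun k c g x => ap_smul _ _ _ _
      op_sum := fun ι s k g x => ap_sum _ _ _ _
      op_const := fun k c x => ap_const (hk k) c x
      abs_op := fun k g x => abs_ap_le (hk k) (fun y => le_refl _) x
      sq_op := fun k g x => ap_sq_le (hk k) g x
      av_op := fun k g => itg_ap (hk k) g
      av_adj := fun k g h' => itg_ap_mul (hk k) g h'
      av_mono := fun g h' hg => itg_mono h hg
      av_cs := fun g h' => ?_ }
  have h1 : itg μ (fun x => g x * h' x) ^ 2 ≤
      itg μ (fun x => g x ^ 2) * itg μ (fun x => h' x ^ 2) :=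
    itg_cs h _ _ _ (fun _ => sq_nonneg _) (fun _ => sq_nonneg _) (fun i => by
      show (g i * h' i) ^ 2 ≤ g i ^ 2 * h' i ^ 2
      rw [mul_pow])
  have n1 : 0 ≤ itg μ (fun x => g x ^ 2) := itg_nonneg h (fun _ => sq_nonneg _)
  rw [ea, ea, ea, ← Real.sqrt_mul n1]
  exact (le_abs_self _).trans (Real.abs_le_sqrt h1)

end Vale.Agent.P125.P32
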