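import Mathlib
import Vale.Agent.P125.Dich.Iter

set_option linter.unusedSectionVars false
set_option linter.unusedVariables false

/-!
# P125 Poly: polynomial rate for the summing operators (helper78, board 579), function form

Architecture (helper58): NO stubs.  Every lemma of the proof is a `def St... : Prop` below.
A filler proves `theorem st..._NN : St...` (possibly from earlier `St...` as hypotheses, as said in
the subtask) in his OWN file `Poly/<Name>_NN.lean` (NN = seat number).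
-/

namespace Vale.Agent.P125.P32

open scoped BigOperators
open Vale.Agent.P125.Dich

variable {S : Type} [Fintype S] [DecidableEq S]

/-- `P^k g` -/
def op (P : Matrix S S ℝ) (k : ℕ) (g : S → ℝ) : S → ℝ := fun x => ∑ y, (P ^ k) x y * g y
/-- `μ(g)` -/
def av (μ : S → ℝ) (g : S → ℝ) : ℝ := ∑ x, μ x * g x

/-- basic calculus of `op`, `av` (subtask LIB) -/
structure Lib (μ : S → ℝ) (P : Matrix S S ℝ) : Prop where
  mu_nonneg : ∀ x, 0 ≤ μ x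
  mu_sum : ∑ x, μ x = 1
  pw_nonneg : ∀ k x y, 0 ≤ (P ^ k) x y
  pw_sum : ∀ k x, ∑ y, (P ^ k) x y = 1
  pw_rev : ∀ k x y, μ x * (P ^ k) x y = μ y * (P ^ k) y x
  pw_add : ∀ a b x y, (P ^ (a + b)) x y = ∑ z, (P ^ a) x z * (P ^ b) z y
  op_zero : ∀ g : S → ℝ, op P 0 g = g
  op_one : ∀ (g : S → ℝ) x, op P 1 g x = ∑ y, P x y * g y
  op_op : ∀ a b (g : S → ℝ), op P a (op P b g) = op P (a + b) g
  op_mono : ∀ k (g h : S → ℝ), (∀ y, g y ≤ h y) → ∀ x, op P k g x ≤ op P k h x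
  op_add : ∀ k (g h : S → ℝ) x, op P k (fun y => g y + h y) x = op P k g x + op P k h x
  op_sub : ∀ k (g h : S → ℝ) x, op P k (fun y => g y - h y) x = op P k g x - op P k h x
  op_smul : ∀ k (c : ℝ) (g : S → ℝ) x, op P k (fun y => c * g y) x = c * op P k g x
  op_sum : ∀ (ι : Type) (s : Finset ι) k (g : ι → S → ℝ) x,
    op P k (fun y => ∑ i ∈ s, g i y) x = ∑ i ∈ s, op P k (g i) x
  op_const : ∀ k (c : ℝ) x, op P k (fun _ => c) x = c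
  abs_op : ∀ k (g : S → ℝ) x, |op P k g x| ≤ op P k (fun y => |g y|) x
  sq_op : ∀ k (g : S → ℝ) x, (op P k g x) ^ 2 ≤ op P k (fun y => g y ^ 2) x
  av_op : ∀ k (g : S → ℝ), av μ (op P k g) = av μ g
  av_adj : ∀ k (g h : S → ℝ), av μ (fun x => g x * op P k h x) = av μ (fun x => op P k g x * h x)
  av_mono : ∀ (g h : S → ℝ), (∀ x, g x ≤ h x) → av μ g ≤ av μ h
  av_cs : ∀ (g h : S → ℝ), av μ (fun x => g x * h x) ≤
    Real.sqrt (av μ (fun x => g x ^ 2)) * Real.sqrt (av μ (fun x => h x ^ 2))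

def StLib : Prop := ∀ (S : Type) [Fintype S] [DecidableEq S] (μ : S → ℝ) (P : Matrix S S ℝ),
  IsChain μ P → Lib μ P

variable {n : ℕ}

/-- running sums `F_k(x) = ∑_{i ≤ k} f(x)_i` -/
def F (f : S → Fin n → ℝ) (k : Fin n) (x : S) : ℝ := ∑ i, if i ≤ k then f x i else 0
def w (f : S → Fin n → ℝ) (a b : S) (k : Fin n) : ℝ := |f b k - f a k|
def ell (f : S → Fin n → ℝ) (a b : S) : ℝ := ∑ k, w f a b k
/-- `U = E |f(Z_1)-f(Z_0)|_1^2` -/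
def U (μ : S → ℝ) (P : Matrix S S ℝ) (f : S → Fin n → ℝ) : ℝ :=
  ∑ a, ∑ b, μ a * P a b * ell f a b ^ 2
def lbar (P : Matrix S S ℝ) (f : S → Fin n → ℝ) (x : S) : ℝ := ∑ y, P x y * ell f x y
def l2 (P : Matrix S S ℝ) (f : S → Fin n → ℝ) (x : S) : ℝ := ∑ y, P x y * ell f x y ^ 2
def om (P : Matrix S S ℝ) (f : S → Fin n → ℝ) (k : Fin n) (y : S) : ℝ := ∑ x, P y x * w f y x k
/-- `A^t_k(b) = E_b |F_k(Z_t) - F_k(b)|` -/
def Ak (P : Matrix S S ℝ) (f : S → Fin n → ℝ) (t : ℕ) (k : Fin n) (b : S) : ℝ :=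
  ∑ y, (P ^ t) b y * |F f k y - F f k b|
def Qk (μ : S → ℝ) (P : Matrix S S ℝ) (f : S → Fin n → ℝ) (t : ℕ) (k : Fin n) : ℝ :=
  av μ (fun b => om P f k b * Ak P f t k b)
def Qsum (μ : S → ℝ) (P : Matrix S S ℝ) (f : S → Fin n → ℝ) (t : ℕ) : ℝ := ∑ k, Qk μ P f t k
/-- block drift `h_k = P^τ F_k - F_k` -/
def hh (P : Matrix S S ℝ) (f : S → Fin n → ℝ) (τ : ℕ) (k : Fin n) (z : S) : ℝ :=
  op P τ (F f k) z - F f k z
def Rr (μ : S → ℝ) (P : Matrix S S ℝ) (f : S → Fin n → ℝ) (τ s : ℕ) : ℝ :=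
  ∑ k, av μ (fun b => om P f k b * op P s (fun z => |hh P f τ k z|) b)
/-- `ζ_k = sgn(h_k) P^s ω_k` -/
noncomputable def zt (P : Matrix S S ℝ) (f : S → Fin n → ℝ) (τ s : ℕ) (k : Fin n) (z : S) : ℝ :=
  SignType.sign (hh P f τ k z) * op P s (om P f k) z
/-- `M_k = ∑_{i<τ} P^i ζ_k` -/
noncomputable def Mk (P : Matrix S S ℝ) (f : S → Fin n → ℝ) (τ s : ℕ) (k : Fin n) (y : S) : ℝ :=
  ∑ i ∈ Finset.range τ, op P i (zt P f τ s k) y
/-- `U^j = ∑_{k ≥ j} M_k` -/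
noncomputable def UU (P : Matrix S S ℝ) (f : S → Fin n → ℝ) (τ s : ℕ) (j : Fin n) (y : S) : ℝ :=
  ∑ k, if j ≤ k then Mk P f τ s k y else 0
def NU (P : Matrix S S ℝ) (f : S → Fin n → ℝ) (τ s : ℕ) (k : Fin n) (y : S) : ℝ :=
  ∑ i ∈ Finset.range τ, op P (i + s) (om P f k) y
noncomputable def ek (P : Matrix S S ℝ) (f : S → Fin n → ℝ) (τ s : ℕ) (k : Fin n) (a : S) : ℝ :=
  ∑ b, P a b * |UU P f τ s k a - UU P f τ s k b|
noncomputable def epsk (P : Matrix S S ℝ) (f : S → Fin n → ℝ) (τ s : ℕ) (k : Fin n) (a : S) : ℝ :=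
  ∑ b, P a b * (UU P f τ s k b - UU P f τ s k a) ^ 2
def LL (P : Matrix S S ℝ) (f : S → Fin n → ℝ) (s : ℕ) : S → ℝ := op P s (lbar P f)
def AA (P : Matrix S S ℝ) (f : S → Fin n → ℝ) (τ s : ℕ) (y : S) : ℝ :=
  ∑ i ∈ Finset.range τ, op P i (LL P f s) y
def BB (P : Matrix S S ℝ) (f : S → Fin n → ℝ) (τ s : ℕ) (y : S) : ℝ :=
  op P (s + τ) (fun z => AA P f τ s z ^ 2) y +
    2 * ∑ i ∈ Finset.range τ,
      op P (i + s) (fun z => AA P f τ s z * (op P τ (LL P f s) z + LL P f s z)) y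

/-! ## The statements -/

/-- OWN: own-measure lemma (Step 1) -/
def StOwn : Prop := ∀ (n : ℕ) (v b : Fin n → ℝ), (∀ k, |v k| ≤ b k) → ∀ k0 : Fin n,
  (∑ i, if i ≤ k0 then v i else 0) ^ 2 ≤ 2 * ∑ k, b k * |∑ i, if i ≤ k then v i else 0|

/-- OWNT: the same for tails (Step 5) -/
def StOwnT : Prop := ∀ (n : ℕ) (v b : Fin n → ℝ), (∀ k, |v k| ≤ b k) → ∀ k0 : Fin n,
  (∑ i, if k0 ≤ i then v i else 0) ^ 2 ≤ 2 * ∑ k, b k * |∑ i, if k ≤ i then v i else 0|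

/-- TEL: telescoping along the (four point) path measure -/
def StTel : Prop := ∀ (S : Type) [Fintype S] [DecidableEq S] (μ : S → ℝ) (P : Matrix S S ℝ),
  IsChain μ P → Lib μ P → ∀ (g : S → ℝ) (Φ : S → S → ℝ), (∀ x y, 0 ≤ Φ x y) → ∀ t : ℕ,
    ∑ x, ∑ y, μ x * (P ^ t) x y * (|g y - g x| * Φ x y) ≤
      ∑ r ∈ Finset.range t, ∑ x, ∑ a, ∑ b, ∑ y,
        μ x * (P ^ r) x a * P a b * (P ^ (t - 1 - r)) b y * (|g b - g a| * Φ x y)

/-- COL: triangle inequality + collapse of the four point sums -/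
def StCol : Prop := ∀ (S : Type) [Fintype S] [DecidableEq S] (μ : S → ℝ) (P : Matrix S S ℝ),
  IsChain μ P → Lib μ P → ∀ (n : ℕ) (f : S → Fin n → ℝ) (k : Fin n) (r r' : ℕ),
    ∑ x, ∑ a, ∑ b, ∑ y, μ x * (P ^ r) x a * P a b * (P ^ r') b y *
        (w f a b k * |F f k y - F f k x|) ≤
      Qk μ P f r' k + (∑ a, ∑ b, μ a * P a b * (w f a b k * ell f a b)) + Qk μ P f r k

/-- TWO: Steps 1+2 -/
def StTwo : Prop := ∀ (S : Type) [Fintype S] [DecidableEq S] (μ : S → ℝ) (P : Matrix S S ℝ),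
  IsChain μ P → Lib μ P → ∀ (n : ℕ) (f : S → Fin n → ℝ) (κ : S → S → Fin n) (t : ℕ),
    ∑ x, ∑ y, μ x * (P ^ t) x y * (F f (κ x y) y - F f (κ x y) x) ^ 2 ≤
      2 * t * U μ P f + 2 * ∑ r ∈ Finset.range t, (Qsum μ P f (t - 1 - r) + Qsum μ P f r)

/-- SMALL: small facts on `om`, `lbar`, `l2`, `U` -/
def StSmall : Prop := ∀ (S : Type) [Fintype S] [DecidableEq S] (μ : S → ℝ) (P : Matrix S S ℝ),
  IsChain μ P → Lib μ P → ∀ (n : ℕ) (f : S → Fin n → ℝ),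
    (∀ k y, 0 ≤ om P f k y) ∧ (∀ y, ∑ k, om P f k y = lbar P f y) ∧ (∀ y, 0 ≤ lbar P f y) ∧
    (∀ y, 0 ≤ l2 P f y) ∧ av μ (l2 P f) = U μ P f ∧ av μ (fun y => lbar P f y ^ 2) ≤ U μ P f ∧
    0 ≤ U μ P f ∧ (∀ k a b, |F f k b - F f k a| ≤ ell f a b) ∧ (∀ a b k, w f a b k = w f b a k) ∧
    (∀ a b, ell f a b = ell f b a)

/-- TRIV1 -/
def StTriv1 : Prop := ∀ (S : Type) [Fintype S] [DecidableEq S] (μ : S → ℝ) (P : Matrix S S ℝ),
  IsChain μ P → Lib μ P → ∀ (n : ℕ) (f : S → Fin n → ℝ) (k : Fin n) (ρ : ℕ) (z : S),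
    Ak P f ρ k z ≤ ∑ i ∈ Finset.range ρ, op P i (lbar P f) z

/-- TRIV2 -/
def StTriv2 : Prop := ∀ (S : Type) [Fintype S] [DecidableEq S] (μ : S → ℝ) (P : Matrix S S ℝ),
  IsChain μ P → Lib μ P → ∀ (n : ℕ) (f : S → Fin n → ℝ) (k : Fin n) (τ : ℕ) (b : S),
    ∑ y, (P ^ τ) b y * (F f k y - F f k b) ^ 2 ≤ τ * ∑ i ∈ Finset.range τ, op P i (l2 P f) b

/-- SQRT: martingale + drift induction (Step 3), for a general chain `R` and function `G` -/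
def StSqrt : Prop := ∀ (S : Type) [Fintype S] [DecidableEq S] (μ : S → ℝ) (R : Matrix S S ℝ),
  IsChain μ R → Lib μ R → ∀ (G : S → ℝ) (J : ℕ) (c : ℝ) (b : S),
    ∑ y, (R ^ J) b y * |c + G y - G b| ≤
      Real.sqrt (c ^ 2 + ∑ j ∈ Finset.range J, op R j (fun z => ∑ y, R z y * (G y - G z) ^ 2) b) +
        ∑ j ∈ Finset.range J, op R j (fun z => |∑ y, R z y * (G y - G z)|) b

/-- REM: remainder of the block decomposition -/
def StRem : Prop := ∀ (S : Type) [Fintype S] [DecidableEq S] (μ : S → ℝ) (P : Matrix S S ℝ),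
  IsChain μ P → Lib μ P → ∀ (n : ℕ) (f : S → Fin n → ℝ) (m ρ : ℕ),
    Qsum μ P f (m + ρ) ≤ Qsum μ P f m + ρ * U μ P f

/-- BLK: Step 3 -/
def StBlk : Prop := ∀ (S : Type) [Fintype S] [DecidableEq S] (μ : S → ℝ) (P : Matrix S S ℝ),
  IsChain μ P → Lib μ P → ∀ (n : ℕ) (f : S → Fin n → ℝ) (τ J : ℕ),
    Qsum μ P f (τ * J) ≤ Real.sqrt J * τ * U μ P f + ∑ j ∈ Finset.range J, Rr μ P f τ (τ * j)

/-- DUAL: Step 4 -/
def StDual : Prop := ∀ (S : Type) [Fintype S] [DecidableEq S] (μ : S → ℝ) (P : Matrix S S ℝ),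
  IsChain μ P → Lib μ P → ∀ (n : ℕ) (f : S → Fin n → ℝ) (τ s : ℕ),
    Rr μ P f τ s ≤ (1 / 2) * ∑ a, ∑ b, μ a * P a b *
      ∑ j, w f a b j * |UU P f τ s j a - UU P f τ s j b|

/-- DOWN: Step 5 -/
def StDown : Prop := ∀ (S : Type) [Fintype S] [DecidableEq S] (μ : S → ℝ) (P : Matrix S S ℝ),
  IsChain μ P → Lib μ P → ∀ (n : ℕ) (f : S → Fin n → ℝ) (τ s : ℕ) (a b : S) (j0 : Fin n),
    (UU P f τ s j0 a - UU P f τ s j0 b) ^ 2 ≤
      2 * ∑ k, (NU P f τ s k a + NU P f τ s k b) * |UU P f τ s k a - UU P f τ s k b|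

/-- BACK: Step 6 -/
def StBack : Prop := ∀ (S : Type) [Fintype S] [DecidableEq S] (μ : S → ℝ) (P : Matrix S S ℝ),
  IsChain μ P → Lib μ P → ∀ (n : ℕ) (f : S → Fin n → ℝ) (τ s : ℕ),
    ∑ a, ∑ b, μ a * P a b *
        ∑ k, (NU P f τ s k a + NU P f τ s k b) * |UU P f τ s k a - UU P f τ s k b| =
      2 * ∑ k, av μ (fun y => om P f k y *
        ∑ i ∈ Finset.range τ, op P (i + s) (ek P f τ s k) y)

/-- EN: Step 7, pointwise -/
def StEn : Prop := ∀ (S : Type) [Fintype S] [DecidableEq S] (μ : S → ℝ) (P : Matrix S S ℝ),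
  IsChain μ P → Lib μ P → ∀ (n : ℕ) (f : S → Fin n → ℝ) (τ s : ℕ) (k : Fin n) (y : S),
    ∑ i ∈ Finset.range τ, op P (i + s) (epsk P f τ s k) y ≤ BB P f τ s y

/-- BBAV: Step 7, average -/
def StBB : Prop := ∀ (S : Type) [Fintype S] [DecidableEq S] (μ : S → ℝ) (P : Matrix S S ℝ),
  IsChain μ P → Lib μ P → ∀ (n : ℕ) (f : S → Fin n → ℝ) (τ s : ℕ),
    (∀ y, 0 ≤ BB P f τ s y) ∧ av μ (BB P f τ s) ≤ 5 * (τ : ℝ) ^ 2 * U μ P f

/-- XI: `E Ξ ≤ 2 √5 τ^{3/2} U` -/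
def StXi : Prop := ∀ (S : Type) [Fintype S] [DecidableEq S] (μ : S → ℝ) (P : Matrix S S ℝ),
  IsChain μ P → Lib μ P → ∀ (n : ℕ) (f : S → Fin n → ℝ) (τ s : ℕ),
    ∑ k, av μ (fun y => om P f k y * ∑ i ∈ Finset.range τ, op P (i + s) (ek P f τ s k) y) ≤
      Real.sqrt (5 * (τ : ℝ) ^ 3) * U μ P f

/-- RB: `R_s ≤ (3/2) τ^{3/4} U` -/
def StR : Prop := ∀ (S : Type) [Fintype S] [DecidableEq S] (μ : S → ℝ) (P : Matrix S S ℝ),
  IsChain μ P → Lib μ P → ∀ (n : ℕ) (f : S → Fin n → ℝ) (τ s : ℕ),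
    Rr μ P f τ s ≤ (3 / 2) * (τ : ℝ) ^ (3 / 4 : ℝ) * U μ P f

/-- QB: bound of `Q` -/
def StQ : Prop := ∀ (S : Type) [Fintype S] [DecidableEq S] (μ : S → ℝ) (P : Matrix S S ℝ),
  IsChain μ P → Lib μ P → ∀ (n : ℕ) (f : S → Fin n → ℝ) (τ t' : ℕ), 1 ≤ τ →
    Qsum μ P f t' ≤ (Real.sqrt (t' * τ) + τ + (3 / 2) * t' * (τ : ℝ) ^ (-(1 / 4) : ℝ)) * U μ P f

/-- CORE: the theorem in selector form -/
def StCore : Prop := ∀ (S : Type) [Fintype S] [DecidableEq S] (μ : S → ℝ) (P : Matrix S S ℝ),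
  IsChain μ P → ∀ (n : ℕ) (f : S → Fin n → ℝ) (κ : S → S → Fin n) (t : ℕ), 1 ≤ t →
    ∑ x, ∑ y, μ x * (P ^ t) x y * (F f (κ x y) y - F f (κ x y) x) ^ 2 ≤
      24 * (t : ℝ) ^ (11 / 6 : ℝ) * U μ P f

end Vale.Agent.P125.P32
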