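import Mathlib
import Vale.Agent.P125.P32.Defs58

/-!
# P125 Poly: OWNT (own-measure lemma for tails) from OWN, by reversing the index
-/

namespace Vale.Agent.P125.P32

open scoped BigOperators

private lemma rev_sum_27 (n : ℕ) (v : Fin n → ℝ) (k : Fin n) :
    (∑ i, if i ≤ Fin.rev k then v (Fin.rev i) else 0) = ∑ i, if k ≤ i then v i else 0 := by
  rw [← Equiv.sum_comp Fin.revPerm (fun i => if k ≤ i then v i else 0)]
  refine Finset.sum_congr rfl fun i _ => ?_
  simp only [Fin.revPerm_apply]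
  by_cases hk : i ≤ Fin.rev k
  · rw [if_pos hk, if_pos (Fin.le_rev_iff.mp hk)]
  · rw [if_neg hk, if_neg (fun h => hk (Fin.le_rev_iff.mp h))]

theorem stOwnT_27 (h : StOwn) : StOwnT := by
  intro n v b hvb k0
  have h1 := h n (fun i => v (Fin.rev i)) (fun i => b (Fin.rev i)) (fun k => hvb (Fin.rev k))
    (Fin.rev k0)
  rw [rev_sum_27] at h1
  refine h1.trans (le_of_eq ?_)
  congr 1
  rw [← Equiv.sum_comp Fin.revPerm (fun k => b k * |∑ i, if k ≤ i then v i else 0|)]
  refine Finset.sum_congr rfl fun k _ => ?_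
  simp only [Fin.revPerm_apply]
  have h2 := rev_sum_27 n v (Fin.rev k)
  rw [Fin.rev_rev] at h2
  rw [h2]

end Vale.Agent.P125.P32
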