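import Vale.Agent.P125.P32.Defs58

namespace Vale.Agent.P125.P32

open scoped BigOperators

private lemma split33 {n : ℕ} (φ : Fin n → ℝ) (k : Fin n) :
    ∑ i : Fin n, (if i.val < k.val + 1 then φ i else 0)
      = ∑ i : Fin n, (if i.val < k.val then φ i else 0) + φ k := by
  have h : ∀ i : Fin n, (if i.val < k.val + 1 then φ i else 0)
      = (if i.val < k.val then φ i else 0) + (if i = k then φ i else 0) := by
    intro i
    by_cases h1 : i.val < k.val
    · have h2 : i ≠ k := by
        intro h; subst h; exact lt_irrefl _ h1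
      have h3 : i.val < k.val + 1 := Nat.lt_succ_of_lt h1
      simp [h1, h2, h3]
    · by_cases h2 : i = k
      · subst h2; simp
      · have h3 : ¬ i.val < k.val + 1 := by
          intro h; apply h2; ext; omega
        simp [h1, h2, h3]
  simp_rw [h]
  rw [Finset.sum_add_distrib]
  simp

theorem stOwn_33 : StOwn := by
  intro n v b hb k0
  set G : ℕ → ℝ := fun m => ∑ i : Fin n, if i.val < m then v i else 0 with hG
  have hG0 : G 0 = 0 := by simp [hG]
  have hstep : ∀ k : Fin n, G (k.val + 1) = G k.val + v k := fun k => split33 v k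
  have hle : ∀ k : Fin n, (∑ i, if i ≤ k then v i else 0) = G (k.val + 1) := by
    intro k
    simp only [hG]
    refine Finset.sum_congr rfl fun i _ => ?_
    have : (i ≤ k) ↔ i.val < k.val + 1 := by rw [Fin.le_def]; omega
    simp only [this]
  have key : ∀ m : ℕ, m ≤ n →
      G m ^ 2 ≤ 2 * ∑ k : Fin n, if k.val < m then b k * |G (k.val + 1)| else 0 := by
    intro m
    induction m with
    | zero => intro _; simp [hG0]
    | succ m ih =>
      intro hm
      have hmn : m < n := hm
      have h1 := ih (by omega)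
      have h2 : G (m + 1) = G m + v ⟨m, hmn⟩ := hstep ⟨m, hmn⟩
      have h3 := split33 (fun k' : Fin n => b k' * |G (k'.val + 1)|) ⟨m, hmn⟩
      simp only at h3
      rw [h3]
      have h4 : G (m + 1) ^ 2 - G m ^ 2 ≤ 2 * (|v ⟨m, hmn⟩| * |G (m + 1)|) := by
        have h7 : G (m + 1) ^ 2 - G m ^ 2 ≤ 2 * (v ⟨m, hmn⟩ * G (m + 1)) := by
          rw [h2]; nlinarith [sq_nonneg (v ⟨m, hmn⟩)]
        have h5 : v ⟨m, hmn⟩ * G (m + 1) ≤ |v ⟨m, hmn⟩| * |G (m + 1)| := by
          rw [← abs_mul]; exact le_abs_self _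
        linarith
      have h6 : |v ⟨m, hmn⟩| * |G (m + 1)| ≤ b ⟨m, hmn⟩ * |G (m + 1)| :=
        mul_le_mul_of_nonneg_right (hb _) (abs_nonneg _)
      linarith
  rw [hle k0]
  simp_rw [hle]
  refine le_trans (key (k0.val + 1) k0.isLt) ?_
  refine mul_le_mul_of_nonneg_left ?_ (by norm_num)
  refine Finset.sum_le_sum fun k _ => ?_
  have hbk : 0 ≤ b k := le_trans (abs_nonneg _) (hb k)
  split_ifs
  · exact le_rfl
  · exact mul_nonneg hbk (abs_nonneg _)

end Vale.Agent.P125.P32
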