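import Vale.Agent.P125.P32.Defs58

set_option linter.unusedSectionVars false
set_option linter.unusedVariables false

namespace Vale.Agent.P125.P32

open scoped BigOperators
open Vale.Agent.P125.Dich

theorem stQ_64 (hs : StSmall) (h1 : StRem) (h2 : StBlk) (h3 : StR) : StQ := by
  intro S _ _ μ P hC hL n f τ t' hτ
  obtain ⟨_, _, _, _, _, _, hU, _, _, _⟩ := hs S μ P hC hL n f
  set Uu : ℝ := U μ P f with hUu
  set J : ℕ := t' / τ with hJ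
  set ρ : ℕ := t' % τ with hρ
  have hdec : τ * J + ρ = t' := Nat.div_add_mod t' τ
  have hτ0 : 0 < τ := hτ
  have hρlt : ρ < τ := Nat.mod_lt _ hτ0
  have hτR : (0 : ℝ) < (τ : ℝ) := by exact_mod_cast hτ0
  have hJτ : (τ : ℝ) * (J : ℝ) ≤ (t' : ℝ) := by
    have : τ * J ≤ t' := by omega
    exact_mod_cast this
  have a1 : Qsum μ P f t' ≤ Qsum μ P f (τ * J) + (ρ : ℝ) * Uu := by
    have := h1 S μ P hC hL n f (τ * J) ρ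
    rw [hdec] at this
    exact this
  have a2 : Qsum μ P f (τ * J) ≤ Real.sqrt J * τ * Uu + ∑ j ∈ Finset.range J, Rr μ P f τ (τ * j) :=
    h2 S μ P hC hL n f τ J
  have a3 : ∑ j ∈ Finset.range J, Rr μ P f τ (τ * j) ≤
      (J : ℝ) * ((3 / 2) * (τ : ℝ) ^ (3 / 4 : ℝ) * Uu) := by
    calc ∑ j ∈ Finset.range J, Rr μ P f τ (τ * j)
        ≤ ∑ j ∈ Finset.range J, ((3 / 2) * (τ : ℝ) ^ (3 / 4 : ℝ) * Uu) :=
          Finset.sum_le_sum fun j _ => h3 S μ P hC hL n f τ (τ * j)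
      _ = (J : ℝ) * ((3 / 2) * (τ : ℝ) ^ (3 / 4 : ℝ) * Uu) := by
          rw [Finset.sum_const, Finset.card_range, nsmul_eq_mul]
  have b1 : Real.sqrt J * τ ≤ Real.sqrt (t' * τ) := by
    have e : Real.sqrt J * τ = Real.sqrt ((J : ℝ) * (τ : ℝ) ^ 2) := by
      rw [Real.sqrt_mul (Nat.cast_nonneg J), Real.sqrt_sq hτR.le]
    rw [e]
    apply Real.sqrt_le_sqrt
    nlinarith
  have b2 : (ρ : ℝ) ≤ (τ : ℝ) := by exact_mod_cast hρlt.le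
  have e34 : (τ : ℝ) ^ (3 / 4 : ℝ) = (τ : ℝ) * (τ : ℝ) ^ (-(1 / 4) : ℝ) := by
    have : (3 / 4 : ℝ) = 1 + (-(1 / 4) : ℝ) := by norm_num
    rw [this, Real.rpow_add hτR, Real.rpow_one]
  have hq : (0 : ℝ) ≤ (τ : ℝ) ^ (-(1 / 4) : ℝ) := Real.rpow_nonneg hτR.le _
  have b3 : (J : ℝ) * (τ : ℝ) ^ (3 / 4 : ℝ) ≤ (t' : ℝ) * (τ : ℝ) ^ (-(1 / 4) : ℝ) := by
    rw [e34]
    calc (J : ℝ) * ((τ : ℝ) * (τ : ℝ) ^ (-(1 / 4) : ℝ))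
        = ((τ : ℝ) * (J : ℝ)) * (τ : ℝ) ^ (-(1 / 4) : ℝ) := by ring
      _ ≤ (t' : ℝ) * (τ : ℝ) ^ (-(1 / 4) : ℝ) := mul_le_mul_of_nonneg_right hJτ hq
  have c1 : Real.sqrt J * τ * Uu ≤ Real.sqrt (t' * τ) * Uu := mul_le_mul_of_nonneg_right b1 hU
  have c2 : (ρ : ℝ) * Uu ≤ (τ : ℝ) * Uu := mul_le_mul_of_nonneg_right b2 hU
  have c3 : (J : ℝ) * ((3 / 2) * (τ : ℝ) ^ (3 / 4 : ℝ) * Uu) ≤
      (3 / 2) * t' * (τ : ℝ) ^ (-(1 / 4) : ℝ) * Uu := by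
    have := mul_le_mul_of_nonneg_right b3 hU
    nlinarith
  calc Qsum μ P f t' ≤ Real.sqrt (t' * τ) * Uu + (τ : ℝ) * Uu
        + (3 / 2) * t' * (τ : ℝ) ^ (-(1 / 4) : ℝ) * Uu := by linarith
    _ = (Real.sqrt (t' * τ) + τ + (3 / 2) * t' * (τ : ℝ) ^ (-(1 / 4) : ℝ)) * Uu := by ring

end Vale.Agent.P125.P32
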