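import Vale.Agent.P125.P32.Defs58

set_option linter.unusedSectionVars false
set_option linter.unusedVariables false

/-! # P125 Poly: REM, the remainder of the block decomposition -/

namespace Vale.Agent.P125.P32

open scoped BigOperators
open Vale.Agent.P125.Dich

theorem stRem_32 (hs : StSmall) (h1 : StTriv1) : StRem := by
  intro S _ _ μ P hc L n f m ρ
  obtain ⟨hom0, homsum, hlb0, hl20, havl2, havlb, hU0, hFell, hwsym, hellsym⟩ := hs S μ P hc L n f
  -- pointwise splitting at time `m`
  have hA : ∀ k b, Ak P f (m + ρ) k b ≤ Ak P f m k b + op P m (fun z => Ak P f ρ k z) b := by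
    intro k b
    unfold Ak op
    calc ∑ y, (P ^ (m + ρ)) b y * |F f k y - F f k b|
        = ∑ y, ∑ z, (P ^ m) b z * (P ^ ρ) z y * |F f k y - F f k b| := by
          refine Finset.sum_congr rfl fun y _ => ?_
          rw [L.pw_add m ρ b y, Finset.sum_mul]
      _ = ∑ z, ∑ y, (P ^ m) b z * (P ^ ρ) z y * |F f k y - F f k b| := Finset.sum_comm
      _ ≤ ∑ z, ((P ^ m) b z * |F f k z - F f k b|
            + (P ^ m) b z * ∑ y, (P ^ ρ) z y * |F f k y - F f k z|) := by
          refine Finset.sum_le_sum fun z _ => ?_
          have h2 : ∑ y, (P ^ m) b z * (P ^ ρ) z y * |F f k y - F f k b| ≤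
              ∑ y, (P ^ m) b z * (P ^ ρ) z y * (|F f k z - F f k b| + |F f k y - F f k z|) := by
            refine Finset.sum_le_sum fun y _ => ?_
            apply mul_le_mul_of_nonneg_left _
              (mul_nonneg (L.pw_nonneg m b z) (L.pw_nonneg ρ z y))
            have e : F f k y - F f k b = (F f k z - F f k b) + (F f k y - F f k z) := by ring
            rw [e]
            exact abs_add_le _ _
          refine h2.trans (le_of_eq ?_)
          have e1 : ∀ y, (P ^ m) b z * (P ^ ρ) z y * (|F f k z - F f k b| + |F f k y - F f k z|)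
              = (P ^ m) b z * |F f k z - F f k b| * (P ^ ρ) z y
                + (P ^ m) b z * ((P ^ ρ) z y * |F f k y - F f k z|) := by
            intro y
            ring
          simp only [e1]
          rw [Finset.sum_add_distrib, ← Finset.mul_sum, L.pw_sum ρ z, mul_one, ← Finset.mul_sum]
      _ = _ := by rw [Finset.sum_add_distrib]
  -- the remainder does not depend on `k`
  set T : S → ℝ := fun b => ∑ i ∈ Finset.range ρ, op P (m + i) (lbar P f) b with hT
  have hB : ∀ k b, op P m (fun z => Ak P f ρ k z) b ≤ T b := by
    intro k b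
    have a1 := L.op_mono m (fun z => Ak P f ρ k z)
      (fun z => ∑ i ∈ Finset.range ρ, op P i (lbar P f) z)
      (fun z => h1 S μ P hc L n f k ρ z) b
    refine a1.trans (le_of_eq ?_)
    rw [L.op_sum ℕ (Finset.range ρ) m (fun i => op P i (lbar P f)) b]
    refine Finset.sum_congr rfl fun i _ => ?_
    rw [L.op_op m i (lbar P f)]
  -- each term of `T` against `lbar`
  have hC : ∀ j : ℕ, av μ (fun b => lbar P f b * op P j (lbar P f) b) ≤ U μ P f := by
    intro j
    have a1 : av μ (fun b => lbar P f b * op P j (lbar P f) b) ≤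
        av μ (fun b => (1 / 2) * lbar P f b ^ 2 + (1 / 2) * op P j (fun y => lbar P f y ^ 2) b) := by
      apply L.av_mono
      intro b
      have := L.sq_op j (lbar P f) b
      nlinarith [sq_nonneg (lbar P f b - op P j (lbar P f) b)]
    have a2 : av μ (fun b => (1 / 2) * lbar P f b ^ 2
          + (1 / 2) * op P j (fun y => lbar P f y ^ 2) b)
        = (1 / 2) * av μ (fun b => lbar P f b ^ 2)
          + (1 / 2) * av μ (op P j (fun y => lbar P f y ^ 2)) := by
      unfold av
      rw [Finset.mul_sum, Finset.mul_sum, ← Finset.sum_add_distrib]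
      refine Finset.sum_congr rfl fun x _ => ?_
      ring
    rw [a2, L.av_op] at a1
    linarith
  have hD : av μ (fun b => lbar P f b * T b) ≤ ρ * U μ P f := by
    have e : av μ (fun b => lbar P f b * T b)
        = ∑ i ∈ Finset.range ρ, av μ (fun b => lbar P f b * op P (m + i) (lbar P f) b) := by
      unfold av
      rw [Finset.sum_comm]
      refine Finset.sum_congr rfl fun x _ => ?_
      rw [hT]
      simp only
      rw [Finset.mul_sum, Finset.mul_sum]
    rw [e]
    calc ∑ i ∈ Finset.range ρ, av μ (fun b => lbar P f b * op P (m + i) (lbar P f) b)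
        ≤ ∑ i ∈ Finset.range ρ, U μ P f := Finset.sum_le_sum fun i _ => hC (m + i)
      _ = ρ * U μ P f := by
          rw [Finset.sum_const, Finset.card_range, nsmul_eq_mul]
  -- assembly
  unfold Qsum Qk
  have hE : ∀ k, av μ (fun b => om P f k b * Ak P f (m + ρ) k b) ≤
      av μ (fun b => om P f k b * Ak P f m k b) + av μ (fun b => om P f k b * T b) := by
    intro k
    have a1 : av μ (fun b => om P f k b * Ak P f (m + ρ) k b) ≤
        av μ (fun b => om P f k b * Ak P f m k b + om P f k b * T b) := by
      apply L.av_mono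
      intro b
      have := mul_le_mul_of_nonneg_left ((hA k b).trans (add_le_add_right (hB k b) _)) (hom0 k b)
      linarith
    refine a1.trans (le_of_eq ?_)
    unfold av
    rw [← Finset.sum_add_distrib]
    refine Finset.sum_congr rfl fun x _ => ?_
    ring
  have hF : ∑ k, av μ (fun b => om P f k b * T b) = av μ (fun b => lbar P f b * T b) := by
    unfold av
    rw [Finset.sum_comm]
    refine Finset.sum_congr rfl fun x _ => ?_
    simp only
    rw [← homsum x, Finset.sum_mul, Finset.mul_sum]
  calc ∑ k, av μ (fun b => om P f k b * Ak P f (m + ρ) k b)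
      ≤ ∑ k, (av μ (fun b => om P f k b * Ak P f m k b) + av μ (fun b => om P f k b * T b)) :=
        Finset.sum_le_sum fun k _ => hE k
    _ = ∑ k, av μ (fun b => om P f k b * Ak P f m k b) + av μ (fun b => lbar P f b * T b) := by
        rw [Finset.sum_add_distrib, hF]
    _ ≤ _ := by linarith

end Vale.Agent.P125.P32
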