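import Mathlib

/-!
# P125, polynomial rate: step (B) (block decomposition without martingales)

`R` a stochastic matrix, `F` a function, `h = R F - F`, `V z = sum_w R z w (F w - F z)^2`.  Then
`sum_z (R^m) y z |F z - c| <= sqrt ((F y - c)^2 + sum_{i<m} (R^i V) y) + sum_{i<m} (R^i |h|) y`.
-/

namespace Vale.Agent.P125.P3233

open scoped BigOperators

variable {S : Type} [Fintype S] [DecidableEq S]

/-- Jensen for the square root -/
lemma sum_sqrt_le (p A : S → ℝ) (hp : ∀ w, 0 ≤ p w) (hp1 : ∑ w, p w = 1) (hA : ∀ w, 0 ≤ A w) :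
    ∑ w, p w * Real.sqrt (A w) ≤ Real.sqrt (∑ w, p w * A w) := by
  have h := Real.strictConcaveOn_sqrt.concaveOn.le_map_sum (t := Finset.univ) (w := p) (p := A)
    (fun i _ => hp i) hp1 (fun i _ => hA i)
  simpa [smul_eq_mul] using h

/-- triangle inequality in the plane -/
lemma sqrt_shift (x b s : ℝ) (hs : 0 ≤ s) :
    Real.sqrt ((x + b) ^ 2 + s) ≤ Real.sqrt (x ^ 2 + s) + |b| := by
  have h0 : 0 ≤ Real.sqrt (x ^ 2 + s) := Real.sqrt_nonneg _
  have hx : |x| ≤ Real.sqrt (x ^ 2 + s) := Real.abs_le_sqrt (by linarith)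
  have hsq : Real.sqrt (x ^ 2 + s) ^ 2 = x ^ 2 + s := Real.sq_sqrt (by positivity)
  rw [Real.sqrt_le_iff]
  refine ⟨add_nonneg h0 (abs_nonneg b), ?_⟩
  have h1 : x * b ≤ |x| * |b| := by
    rw [← abs_mul]; exact le_abs_self _
  have h2 : |x| * |b| ≤ Real.sqrt (x ^ 2 + s) * |b| :=
    mul_le_mul_of_nonneg_right hx (abs_nonneg b)
  have h3 : |b| ^ 2 = b ^ 2 := sq_abs b
  nlinarith

/-- second moment around `c` of one step -/
lemma one_step_sq (p F : S → ℝ) (hp : ∀ w, 0 ≤ p w) (hp1 : ∑ w, p w = 1) (a c : ℝ) :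
    ∑ w, p w * (F w - c) ^ 2 ≤ ((∑ w, p w * F w) - c) ^ 2 + ∑ w, p w * (F w - a) ^ 2 := by
  set M := ∑ w, p w * F w with hM
  have e1 : ∑ w, p w * (F w - c) ^ 2
      = ∑ w, p w * F w ^ 2 - 2 * c * M + c ^ 2 := by
    have : ∀ w, p w * (F w - c) ^ 2 = p w * F w ^ 2 - 2 * c * (p w * F w) + c ^ 2 * p w := by
      intro w; ring
    simp_rw [this]
    rw [Finset.sum_add_distrib, Finset.sum_sub_distrib, ← Finset.mul_sum, ← Finset.mul_sum, hp1]
    ring
  have e2 : ∑ w, p w * (F w - a) ^ 2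
      = ∑ w, p w * F w ^ 2 - 2 * a * M + a ^ 2 := by
    have : ∀ w, p w * (F w - a) ^ 2 = p w * F w ^ 2 - 2 * a * (p w * F w) + a ^ 2 * p w := by
      intro w; ring
    simp_rw [this]
    rw [Finset.sum_add_distrib, Finset.sum_sub_distrib, ← Finset.mul_sum, ← Finset.mul_sum, hp1]
    ring
  rw [e1, e2]
  nlinarith [sq_nonneg (M - a)]

/-- the increment of `F` under `R` -/
def hh (R : Matrix S S ℝ) (F : S → ℝ) : S → ℝ := fun z => |R.mulVec F z - F z|

/-- the one step quadratic variation -/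
def VV (R : Matrix S S ℝ) (F : S → ℝ) : S → ℝ := fun z => ∑ w, R z w * (F w - F z) ^ 2

lemma VV_nonneg (R : Matrix S S ℝ) (hR : ∀ i j, 0 ≤ R i j) (F : S → ℝ) (z : S) : 0 ≤ VV R F z :=
  Finset.sum_nonneg fun w _ => mul_nonneg (hR z w) (sq_nonneg _)

lemma pow_nonneg' (R : Matrix S S ℝ) (hR : ∀ i j, 0 ≤ R i j) (m : ℕ) : ∀ i j, 0 ≤ (R ^ m) i j := by
  induction m with
  | zero =>
    intro i j
    rw [pow_zero, Matrix.one_apply]
    split_ifs <;> norm_num
  | succ m ih =>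
    intro i j
    rw [pow_succ, Matrix.mul_apply]
    exact Finset.sum_nonneg fun k _ => mul_nonneg (ih i k) (hR k j)

lemma mulVec_nonneg' (R : Matrix S S ℝ) (hR : ∀ i j, 0 ≤ R i j) (g : S → ℝ) (hg : ∀ z, 0 ≤ g z)
    (y : S) : 0 ≤ R.mulVec g y := by
  unfold Matrix.mulVec dotProduct
  exact Finset.sum_nonneg fun k _ => mul_nonneg (hR y k) (hg k)

/-- shifting a sum of iterates by one step -/
lemma step_iter (R : Matrix S S ℝ) (g : S → ℝ) (m : ℕ) (y : S) :
    ∑ w, R y w * ∑ i ∈ Finset.range m, ((R ^ i).mulVec g) w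
      = ∑ i ∈ Finset.range m, ((R ^ (i + 1)).mulVec g) y := by
  simp_rw [Finset.mul_sum]
  rw [Finset.sum_comm]
  refine Finset.sum_congr rfl fun i _ => ?_
  rw [pow_succ', ← Matrix.mulVec_mulVec]
  rfl

theorem stepB (R : Matrix S S ℝ) (hR : ∀ i j, 0 ≤ R i j) (hR1 : ∀ i, ∑ j, R i j = 1)
    (F : S → ℝ) (m : ℕ) : ∀ (y : S) (c : ℝ),
    ∑ z, (R ^ m) y z * |F z - c|
      ≤ Real.sqrt ((F y - c) ^ 2 + ∑ i ∈ Finset.range m, ((R ^ i).mulVec (VV R F)) y)
        + ∑ i ∈ Finset.range m, ((R ^ i).mulVec (hh R F)) y := by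
  induction m with
  | zero =>
    intro y c
    simp only [pow_zero, Finset.range_zero, Finset.sum_empty, add_zero, Matrix.one_apply,
      ite_mul, one_mul, zero_mul, Finset.sum_ite_eq, Finset.mem_univ, if_true]
    rw [Real.sqrt_sq_eq_abs]
  | succ m ih =>
    intro y c
    set A : S → ℝ := fun w => (F w - c) ^ 2 + ∑ i ∈ Finset.range m, ((R ^ i).mulVec (VV R F)) w
      with hA
    have hA0 : ∀ w, 0 ≤ A w := fun w => add_nonneg (sq_nonneg _)
      (Finset.sum_nonneg fun i _ => mulVec_nonneg' _ (pow_nonneg' R hR i) _ (VV_nonneg R hR F) w)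
    have e0 : ∑ z, (R ^ (m + 1)) y z * |F z - c|
        = ∑ w, R y w * ∑ z, (R ^ m) w z * |F z - c| := by
      simp_rw [pow_succ', Matrix.mul_apply, Finset.sum_mul, Finset.mul_sum]
      rw [Finset.sum_comm]
      refine Finset.sum_congr rfl fun w _ => Finset.sum_congr rfl fun z _ => by ring
    have e1 : ∑ w, R y w * ∑ z, (R ^ m) w z * |F z - c|
        ≤ ∑ w, R y w * (Real.sqrt (A w) + ∑ i ∈ Finset.range m, ((R ^ i).mulVec (hh R F)) w) :=
      Finset.sum_le_sum fun w _ => mul_le_mul_of_nonneg_left (ih w c) (hR y w)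
    have e2 : ∑ w, R y w * (Real.sqrt (A w) + ∑ i ∈ Finset.range m, ((R ^ i).mulVec (hh R F)) w)
        = ∑ w, R y w * Real.sqrt (A w)
          + ∑ i ∈ Finset.range m, ((R ^ (i + 1)).mulVec (hh R F)) y := by
      simp_rw [mul_add]
      rw [Finset.sum_add_distrib, step_iter]
    have e3 : ∑ w, R y w * Real.sqrt (A w) ≤ Real.sqrt (∑ w, R y w * A w) :=
      sum_sqrt_le _ _ (hR y) (hR1 y) hA0
    have e4 : ∑ w, R y w * A w
        ≤ (R.mulVec F y - c) ^ 2 + ∑ i ∈ Finset.range (m + 1), ((R ^ i).mulVec (VV R F)) y := by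
      have : ∑ w, R y w * A w = ∑ w, R y w * (F w - c) ^ 2
          + ∑ i ∈ Finset.range m, ((R ^ (i + 1)).mulVec (VV R F)) y := by
        simp_rw [hA, mul_add]
        rw [Finset.sum_add_distrib, step_iter]
      rw [this, Finset.sum_range_succ' _ m]
      have h5 := one_step_sq (R y) F (hR y) (hR1 y) (F y) c
      have h6 : ((R ^ 0).mulVec (VV R F)) y = VV R F y := by simp
      rw [h6]
      have h7 : R.mulVec F y = ∑ w, R y w * F w := rfl
      rw [h7]
      unfold VV at *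
      linarith
    set s := ∑ i ∈ Finset.range (m + 1), ((R ^ i).mulVec (VV R F)) y with hs
    have hs0 : 0 ≤ s := Finset.sum_nonneg fun i _ =>
      mulVec_nonneg' _ (pow_nonneg' R hR i) _ (VV_nonneg R hR F) y
    have e5 : Real.sqrt ((R.mulVec F y - c) ^ 2 + s)
        ≤ Real.sqrt ((F y - c) ^ 2 + s) + hh R F y := by
      have := sqrt_shift (F y - c) (R.mulVec F y - F y) s hs0
      have e : F y - c + (R.mulVec F y - F y) = R.mulVec F y - c := by ring
      rw [e] at this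
      exact this
    have e6 : ∑ i ∈ Finset.range (m + 1), ((R ^ i).mulVec (hh R F)) y
        = ∑ i ∈ Finset.range m, ((R ^ (i + 1)).mulVec (hh R F)) y + hh R F y := by
      rw [Finset.sum_range_succ' _ m]
      simp
    rw [e0, e6]
    have e7 := Real.sqrt_le_sqrt e4
    linarith

end Vale.Agent.P125.P3233
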