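import Vale.Agent.P125.Dich.Iter

set_option linter.unusedSectionVars false
set_option linter.unusedVariables false

/-!
# P125, polynomial rate: step (A) of the path free plan (board 624), one index at a time
-/

namespace Vale.Agent.P125.P3241

open Vale.Agent.P125.Dich
open scoped BigOperators

variable {S : Type} [Fintype S] [DecidableEq S]

theorem pow_nn (R : Matrix S S ℝ) (hR0 : ∀ i j, 0 ≤ R i j) (k : ℕ) : ∀ i j, 0 ≤ (R ^ k) i j := by
  induction k with
  | zero =>
    intro i j
    rw [pow_zero, Matrix.one_apply]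
    split_ifs <;> norm_num
  | succ k ih =>
    intro i j
    rw [pow_succ, Matrix.mul_apply]
    exact Finset.sum_nonneg (fun a _ => mul_nonneg (ih i a) (hR0 a j))

/-- triangle inequality along the path, in matrix form -/
theorem telescope (R : Matrix S S ℝ) (hR0 : ∀ i j, 0 ≤ R i j) (φ : S → ℝ) (i : S) (m : ℕ) :
    ∀ H : S → ℝ, (∀ j, 0 ≤ H j) →
    ∑ j, (R ^ m) i j * (|φ j - φ i| * H j) ≤
      ∑ k ∈ Finset.range m, ∑ a, ∑ b, ∑ j,
        (R ^ k) i a * R a b * (R ^ (m - 1 - k)) b j * (|φ b - φ a| * H j) := by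
  induction m with
  | zero =>
    intro H hH
    simp only [pow_zero, Finset.range_zero, Finset.sum_empty]
    refine le_of_eq (Finset.sum_eq_zero ?_)
    intro j _
    rw [Matrix.one_apply]
    split_ifs with h
    · subst h; simp
    · simp
  | succ m ih =>
    intro H hH
    have hH' : ∀ b, 0 ≤ ∑ j, R b j * H j :=
      fun b => Finset.sum_nonneg (fun j _ => mul_nonneg (hR0 b j) (hH j))
    have h1 := ih (fun b => ∑ j, R b j * H j) hH'
    rw [Finset.sum_range_succ]
    -- the last term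
    have hlast : ∑ a, ∑ b, ∑ j, (R ^ m) i a * R a b * (R ^ (m + 1 - 1 - m)) b j
        * (|φ b - φ a| * H j) = ∑ a, ∑ b, (R ^ m) i a * R a b * (|φ b - φ a| * H b) := by
      refine Finset.sum_congr rfl (fun a _ => Finset.sum_congr rfl (fun b _ => ?_))
      have e : m + 1 - 1 - m = 0 := by omega
      rw [e, pow_zero, Finset.sum_eq_single b]
      · rw [Matrix.one_apply_eq, mul_one]
      · intro j _ hj
        rw [Matrix.one_apply_ne (Ne.symm hj)]
        ring
      · intro h; exact absurd (Finset.mem_univ b) h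
    -- the other terms
    have hoth : ∑ k ∈ Finset.range m, ∑ a, ∑ b, ∑ j,
        (R ^ k) i a * R a b * (R ^ (m + 1 - 1 - k)) b j * (|φ b - φ a| * H j)
        = ∑ k ∈ Finset.range m, ∑ a, ∑ b, ∑ j,
        (R ^ k) i a * R a b * (R ^ (m - 1 - k)) b j * (|φ b - φ a| * ∑ c, R j c * H c) := by
      refine Finset.sum_congr rfl (fun k hk => Finset.sum_congr rfl (fun a _ =>
        Finset.sum_congr rfl (fun b _ => ?_)))
      have hk' : k < m := Finset.mem_range.mp hk
      have e : m + 1 - 1 - k = (m - 1 - k) + 1 := by omega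
      rw [e, pow_succ]
      simp only [Matrix.mul_apply, Finset.mul_sum, Finset.sum_mul]
      rw [Finset.sum_comm]
      refine Finset.sum_congr rfl (fun j _ => Finset.sum_congr rfl (fun c _ => ?_))
      ring
    rw [hlast, hoth]
    -- the left side
    have hL : ∑ j, (R ^ (m + 1)) i j * (|φ j - φ i| * H j)
        ≤ ∑ b, (R ^ m) i b * (|φ b - φ i| * ∑ j, R b j * H j)
          + ∑ a, ∑ b, (R ^ m) i a * R a b * (|φ b - φ a| * H b) := by
      have e1 : ∑ j, (R ^ (m + 1)) i j * (|φ j - φ i| * H j)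
          = ∑ b, ∑ j, (R ^ m) i b * R b j * (|φ j - φ i| * H j) := by
        rw [pow_succ]
        simp only [Matrix.mul_apply, Finset.sum_mul]
        rw [Finset.sum_comm]
      have e2 : ∑ b, (R ^ m) i b * (|φ b - φ i| * ∑ j, R b j * H j)
          = ∑ b, ∑ j, (R ^ m) i b * R b j * (|φ b - φ i| * H j) := by
        refine Finset.sum_congr rfl (fun b _ => ?_)
        simp only [Finset.mul_sum]
        refine Finset.sum_congr rfl (fun j _ => ?_)
        ring
      rw [e1, e2, ← Finset.sum_add_distrib]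
      refine Finset.sum_le_sum (fun b _ => ?_)
      rw [← Finset.sum_add_distrib]
      refine Finset.sum_le_sum (fun j _ => ?_)
      rw [← mul_add, ← add_mul]
      refine mul_le_mul_of_nonneg_left ?_ (mul_nonneg (pow_nn R hR0 m i b) (hR0 b j))
      refine mul_le_mul_of_nonneg_right ?_ (hH j)
      have := abs_sub_le (φ j) (φ b) (φ i)
      linarith
    linarith

/-- swap of the two end points of an edge -/
theorem edge_swap {μ : S → ℝ} {R : Matrix S S ℝ} (hR : IsChain μ R) (w : S → S → ℝ)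
    (hws : ∀ a b, w a b = w b a) (G : S → ℝ) :
    ∑ a, ∑ b, μ a * R a b * (w a b * G a) = ∑ a, ∑ b, μ a * R a b * (w a b * G b) := by
  rw [Finset.sum_comm]
  refine Finset.sum_congr rfl (fun b _ => Finset.sum_congr rfl (fun a _ => ?_))
  rw [hR.2.2.2.2 a b, hws a b]

theorem stat {μ : S → ℝ} {A : Matrix S S ℝ} (hA : IsChain μ A) (a : S) :
    ∑ i, μ i * A i a = μ a := by
  have : ∀ i, μ i * A i a = μ a * A a i := fun i => hA.2.2.2.2 i a
  simp only [this]
  rw [← Finset.mul_sum, hA.2.2.2.1 a, mul_one]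

theorem four_point {μ : S → ℝ} {A R B : Matrix S S ℝ} (hA : IsChain μ A) (hR : IsChain μ R)
    (hB : IsChain μ B) (w : S → S → ℝ) (hw0 : ∀ a b, 0 ≤ w a b) (hws : ∀ a b, w a b = w b a)
    (F : S → ℝ) :
    ∑ i, μ i * ∑ a, ∑ b, ∑ j, A i a * R a b * B b j * (w a b * |F j - F i|)
      ≤ ∑ a, ∑ b, μ a * R a b * (w a b * ∑ c, A b c * |F c - F b|)
        + ∑ a, ∑ b, μ a * R a b * (w a b * |F b - F a|)
        + ∑ a, ∑ b, μ a * R a b * (w a b * ∑ c, B b c * |F c - F b|) := by
  -- first term
  have t1 : ∑ i, μ i * ∑ a, ∑ b, ∑ j, A i a * R a b * B b j * (w a b * |F a - F i|)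
      = ∑ a, ∑ b, μ a * R a b * (w a b * ∑ c, A b c * |F c - F b|) := by
    rw [← edge_swap hR w hws (fun b => ∑ c, A b c * |F c - F b|)]
    have e : ∀ i a b, ∑ j, A i a * R a b * B b j * (w a b * |F a - F i|)
        = A i a * R a b * (w a b * |F a - F i|) := by
      intro i a b
      have : ∀ j, A i a * R a b * B b j * (w a b * |F a - F i|)
          = (A i a * R a b * (w a b * |F a - F i|)) * B b j := fun j => by ring
      simp only [this]
      rw [← Finset.mul_sum, hB.2.2.2.1 b, mul_one]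
    simp only [e, Finset.mul_sum]
    rw [Finset.sum_comm]
    refine Finset.sum_congr rfl (fun a _ => ?_)
    rw [Finset.sum_comm]
    refine Finset.sum_congr rfl (fun b _ => Finset.sum_congr rfl (fun i _ => ?_))
    have h := hA.2.2.2.2 i a
    rw [abs_sub_comm (F a) (F i)]
    calc μ i * (A i a * R a b * (w a b * |F i - F a|))
        = (μ i * A i a) * (R a b * (w a b * |F i - F a|)) := by ring
      _ = (μ a * A a i) * (R a b * (w a b * |F i - F a|)) := by rw [h]
      _ = _ := by ring
  -- second term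
  have t2 : ∑ i, μ i * ∑ a, ∑ b, ∑ j, A i a * R a b * B b j * (w a b * |F b - F a|)
      = ∑ a, ∑ b, μ a * R a b * (w a b * |F b - F a|) := by
    have e : ∀ i a b, ∑ j, A i a * R a b * B b j * (w a b * |F b - F a|)
        = A i a * R a b * (w a b * |F b - F a|) := by
      intro i a b
      have : ∀ j, A i a * R a b * B b j * (w a b * |F b - F a|)
          = (A i a * R a b * (w a b * |F b - F a|)) * B b j := fun j => by ring
      simp only [this]
      rw [← Finset.mul_sum, hB.2.2.2.1 b, mul_one]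
    simp only [e, Finset.mul_sum]
    rw [Finset.sum_comm]
    refine Finset.sum_congr rfl (fun a _ => ?_)
    rw [Finset.sum_comm]
    refine Finset.sum_congr rfl (fun b _ => ?_)
    have : ∀ i, μ i * (A i a * R a b * (w a b * |F b - F a|))
        = (μ i * A i a) * (R a b * (w a b * |F b - F a|)) := fun i => by ring
    simp only [this]
    rw [← Finset.sum_mul, stat hA a]
    ring
  -- third term
  have t3 : ∑ i, μ i * ∑ a, ∑ b, ∑ j, A i a * R a b * B b j * (w a b * |F j - F b|)
      = ∑ a, ∑ b, μ a * R a b * (w a b * ∑ c, B b c * |F c - F b|) := by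
    simp only [Finset.mul_sum]
    rw [Finset.sum_comm]
    refine Finset.sum_congr rfl (fun a _ => ?_)
    rw [Finset.sum_comm]
    refine Finset.sum_congr rfl (fun b _ => ?_)
    rw [Finset.sum_comm]
    refine Finset.sum_congr rfl (fun j _ => ?_)
    have : ∀ i, μ i * (A i a * R a b * B b j * (w a b * |F j - F b|))
        = (μ i * A i a) * (R a b * B b j * (w a b * |F j - F b|)) := fun i => by ring
    simp only [this]
    rw [← Finset.sum_mul, stat hA a]
    ring
  rw [← t1, ← t2, ← t3, ← Finset.sum_add_distrib, ← Finset.sum_add_distrib]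
  refine Finset.sum_le_sum (fun i _ => ?_)
  rw [← mul_add, ← mul_add]
  refine mul_le_mul_of_nonneg_left ?_ (hA.1 i)
  rw [← Finset.sum_add_distrib, ← Finset.sum_add_distrib]
  refine Finset.sum_le_sum (fun a _ => ?_)
  rw [← Finset.sum_add_distrib, ← Finset.sum_add_distrib]
  refine Finset.sum_le_sum (fun b _ => ?_)
  rw [← Finset.sum_add_distrib, ← Finset.sum_add_distrib]
  refine Finset.sum_le_sum (fun j _ => ?_)
  rw [← mul_add, ← mul_add, ← mul_add, ← mul_add]
  refine mul_le_mul_of_nonneg_left ?_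
    (mul_nonneg (mul_nonneg (hA.2.2.1 i a) (hR.2.2.1 a b)) (hB.2.2.1 b j))
  refine mul_le_mul_of_nonneg_left ?_ (hw0 a b)
  have h1 := abs_sub_le (F j) (F b) (F i)
  have h2 := abs_sub_le (F b) (F a) (F i)
  linarith

/-- step (A) for one index -/
theorem stepA {μ : S → ℝ} {R : Matrix S S ℝ} (hR : IsChain μ R) (φ F : S → ℝ) (m : ℕ) :
    ∑ i, ∑ j, μ i * (R ^ m) i j * (|φ j - φ i| * |F j - F i|)
      ≤ (m : ℝ) * ∑ a, ∑ b, μ a * R a b * (|φ b - φ a| * |F b - F a|)
        + 2 * ∑ k ∈ Finset.range m, ∑ a, ∑ b, μ a * R a b *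
            (|φ b - φ a| * ∑ c, (R ^ k) b c * |F c - F b|) := by
  set Qsum : ℕ → ℝ := fun k => ∑ a, ∑ b, μ a * R a b *
            (|φ b - φ a| * ∑ c, (R ^ k) b c * |F c - F b|) with hQq
  set W0 : ℝ := ∑ a, ∑ b, μ a * R a b * (|φ b - φ a| * |F b - F a|) with hW0
  have h1 : ∑ i, ∑ j, μ i * (R ^ m) i j * (|φ j - φ i| * |F j - F i|)
      ≤ ∑ i, μ i * ∑ k ∈ Finset.range m, ∑ a, ∑ b, ∑ j,
        (R ^ k) i a * R a b * (R ^ (m - 1 - k)) b j * (|φ b - φ a| * |F j - F i|) := by
    refine Finset.sum_le_sum (fun i _ => ?_)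
    have := telescope R hR.2.2.1 φ i m (fun j => |F j - F i|) (fun j => abs_nonneg _)
    have h2 := mul_le_mul_of_nonneg_left this (hR.1 i)
    refine le_trans (le_of_eq ?_) h2
    rw [Finset.mul_sum]
    refine Finset.sum_congr rfl (fun j _ => ?_)
    ring
  have h2 : ∑ i, μ i * ∑ k ∈ Finset.range m, ∑ a, ∑ b, ∑ j,
        (R ^ k) i a * R a b * (R ^ (m - 1 - k)) b j * (|φ b - φ a| * |F j - F i|)
      = ∑ k ∈ Finset.range m, ∑ i, μ i * ∑ a, ∑ b, ∑ j,
        (R ^ k) i a * R a b * (R ^ (m - 1 - k)) b j * (|φ b - φ a| * |F j - F i|) := by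
    simp only [Finset.mul_sum]
    rw [Finset.sum_comm]
  have h3 : ∀ k ∈ Finset.range m, ∑ i, μ i * ∑ a, ∑ b, ∑ j,
        (R ^ k) i a * R a b * (R ^ (m - 1 - k)) b j * (|φ b - φ a| * |F j - F i|)
      ≤ Qsum k + W0 + Qsum (m - 1 - k) := by
    intro k _
    exact four_point (isChain_pow hR k) hR (isChain_pow hR (m - 1 - k))
      (fun a b => |φ b - φ a|) (fun a b => abs_nonneg _) (fun a b => abs_sub_comm _ _) F
  have h4 := Finset.sum_le_sum h3
  rw [Finset.sum_add_distrib, Finset.sum_add_distrib, Finset.sum_const, Finset.card_range,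
    nsmul_eq_mul, Finset.sum_range_reflect (fun k => Qsum k) m] at h4
  rw [h2] at h1
  linarith

end Vale.Agent.P125.P3241
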