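import Vale.Agent.P125.P32.Defs58
import Vale.Agent.P125.P32.StepA_41

set_option linter.unusedSectionVars false
set_option linter.unusedVariables false

/-!
# P125 Poly: `StTwo` (Steps 1+2) directly from `P3241.stepA` (no `StTel`, no `StCol` needed)
-/

namespace Vale.Agent.P125.P32

open scoped BigOperators
open Vale.Agent.P125.Dich

theorem F_sub_10 {S : Type} {n : ℕ} (f : S → Fin n → ℝ) (k : Fin n) (x y : S) :
    F f k y - F f k x = ∑ i, if i ≤ k then f y i - f x i else 0 := by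
  unfold F
  rw [← Finset.sum_sub_distrib]
  refine Finset.sum_congr rfl fun i _ => ?_
  split_ifs <;> simp

theorem F_sub_le_10 {S : Type} {n : ℕ} (f : S → Fin n → ℝ) (k : Fin n) (x y : S) :
    |F f k y - F f k x| ≤ ell f x y := by
  rw [F_sub_10]
  unfold ell w
  refine (Finset.abs_sum_le_sum_abs _ _).trans (Finset.sum_le_sum fun i _ => ?_)
  split_ifs
  · exact le_refl _
  · simp

theorem Qk_eq_10 {S : Type} [Fintype S] [DecidableEq S] {μ : S → ℝ} {P : Matrix S S ℝ}
    (hc : IsChain μ P) {n : ℕ} (f : S → Fin n → ℝ) (k : Fin n) (r : ℕ) :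
    ∑ a, ∑ b, μ a * P a b * (|f b k - f a k| * ∑ c, (P ^ r) b c * |F f k c - F f k b|)
      = Qk μ P f r k := by
  unfold Qk av om Ak w
  rw [Finset.sum_comm]
  refine Finset.sum_congr rfl fun b _ => ?_
  show _ = μ b * ((∑ x, P b x * |f x k - f b k|) * ∑ y, (P ^ r) b y * |F f k y - F f k b|)
  rw [Finset.sum_mul, Finset.mul_sum]
  refine Finset.sum_congr rfl fun a _ => ?_
  rw [hc.2.2.2.2 a b, abs_sub_comm (f b k) (f a k)]
  ring

theorem stTwo_10 (h1 : StOwn) : StTwo := by
  intro S _ _ μ P hc hL n f κ t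
  have hpt : ∀ x y, (F f (κ x y) y - F f (κ x y) x) ^ 2 ≤
      2 * ∑ k, (|f y k - f x k| * |F f k y - F f k x|) := by
    intro x y
    have h := h1 n (fun i => f y i - f x i) (fun i => |f y i - f x i|) (fun k => le_refl _) (κ x y)
    simp only [F_sub_10]
    exact h
  have hA : ∀ k, ∑ x, ∑ y, μ x * (P ^ t) x y * (|f y k - f x k| * |F f k y - F f k x|) ≤
      (t : ℝ) * (∑ a, ∑ b, μ a * P a b * (|f b k - f a k| * |F f k b - F f k a|))
        + 2 * ∑ r ∈ Finset.range t, Qk μ P f r k := by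
    intro k
    have h := P3241.stepA hc (fun x => f x k) (F f k) t
    simp only [Qk_eq_10 hc] at h
    exact h
  have hD : ∑ k, ∑ a, ∑ b, μ a * P a b * (|f b k - f a k| * |F f k b - F f k a|) ≤ U μ P f := by
    unfold U
    rw [Finset.sum_comm]
    refine Finset.sum_le_sum fun a _ => ?_
    rw [Finset.sum_comm]
    refine Finset.sum_le_sum fun b _ => ?_
    rw [← Finset.mul_sum]
    refine mul_le_mul_of_nonneg_left ?_ (mul_nonneg (hc.1 a) (hc.2.2.1 a b))
    have h2 : ∑ k, |f b k - f a k| * |F f k b - F f k a| ≤ ∑ k, |f b k - f a k| * ell f a b :=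
      Finset.sum_le_sum fun k _ =>
        mul_le_mul_of_nonneg_left (F_sub_le_10 f k a b) (abs_nonneg _)
    refine h2.trans (le_of_eq ?_)
    rw [← Finset.sum_mul, sq]
    rfl
  have hstep1 : ∑ x, ∑ y, μ x * (P ^ t) x y * (F f (κ x y) y - F f (κ x y) x) ^ 2 ≤
      2 * ∑ k, ∑ x, ∑ y, μ x * (P ^ t) x y * (|f y k - f x k| * |F f k y - F f k x|) := by
    have e : 2 * ∑ k, ∑ x, ∑ y, μ x * (P ^ t) x y * (|f y k - f x k| * |F f k y - F f k x|)
        = ∑ x, ∑ y, μ x * (P ^ t) x y * (2 * ∑ k, (|f y k - f x k| * |F f k y - F f k x|)) := by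
      rw [Finset.sum_comm, Finset.mul_sum]
      refine Finset.sum_congr rfl fun x _ => ?_
      rw [Finset.sum_comm, Finset.mul_sum]
      refine Finset.sum_congr rfl fun y _ => ?_
      rw [← Finset.mul_sum]
      ring
    rw [e]
    refine Finset.sum_le_sum fun x _ => Finset.sum_le_sum fun y _ => ?_
    exact mul_le_mul_of_nonneg_left (hpt x y) (mul_nonneg (hL.mu_nonneg x) (hL.pw_nonneg t x y))
  have hstep2 : ∑ k, ∑ x, ∑ y, μ x * (P ^ t) x y * (|f y k - f x k| * |F f k y - F f k x|) ≤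
      (t : ℝ) * U μ P f + 2 * ∑ r ∈ Finset.range t, Qsum μ P f r := by
    refine (Finset.sum_le_sum fun k _ => hA k).trans ?_
    rw [Finset.sum_add_distrib, ← Finset.mul_sum, ← Finset.mul_sum]
    have e : ∑ k, ∑ r ∈ Finset.range t, Qk μ P f r k = ∑ r ∈ Finset.range t, Qsum μ P f r := by
      rw [Finset.sum_comm]
      rfl
    rw [e]
    have := mul_le_mul_of_nonneg_left hD (Nat.cast_nonneg t : (0 : ℝ) ≤ t)
    linarith
  have hrefl : ∑ r ∈ Finset.range t, (Qsum μ P f (t - 1 - r) + Qsum μ P f r)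
      = 2 * ∑ r ∈ Finset.range t, Qsum μ P f r := by
    rw [Finset.sum_add_distrib, Finset.sum_range_reflect (fun r => Qsum μ P f r) t]
    ring
  rw [hrefl]
  linarith

end Vale.Agent.P125.P32
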