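import Vale.Agent.P125.P32.Defs58

set_option linter.unusedSectionVars false
set_option linter.unusedVariables false

namespace Vale.Agent.P125.P32

open scoped BigOperators
open Vale.Agent.P125.Dich

theorem stXi_87 (hs : StSmall) (h1 : StEn) (h2 : StBB) : StXi := by
  intro S _ _ μ P hP hL n f τ s
  obtain ⟨hom0, homsum, hlb0, _, _, hlbU, hU0, _, _, _⟩ := hs S μ P hP hL n f
  obtain ⟨hBB0, hBBav⟩ := h2 S μ P hP hL n f τ s
  have hτ0 : (0 : ℝ) ≤ (τ : ℝ) := Nat.cast_nonneg τ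
  -- (1) Jensen
  have j1 : ∀ k a, ek P f τ s k a ^ 2 ≤ epsk P f τ s k a := by
    intro k a
    have := hL.sq_op 1 (fun b => |UU P f τ s k a - UU P f τ s k b|) a
    rw [hL.op_one, hL.op_one] at this
    unfold ek epsk
    refine this.trans (le_of_eq ?_)
    refine Finset.sum_congr rfl fun b _ => ?_
    rw [sq_abs]
    ring
  -- (2) pointwise bound of the inner sum
  have j2 : ∀ k y, ∑ i ∈ Finset.range τ, op P (i + s) (ek P f τ s k) y ≤
      Real.sqrt (τ * BB P f τ s y) := by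
    intro k y
    have a1 : (∑ i ∈ Finset.range τ, op P (i + s) (ek P f τ s k) y) ^ 2 ≤
        τ * ∑ i ∈ Finset.range τ, (op P (i + s) (ek P f τ s k) y) ^ 2 := by
      have := sq_sum_le_card_mul_sum_sq (s := Finset.range τ)
        (f := fun i => op P (i + s) (ek P f τ s k) y)
      simpa using this
    have a2 : ∑ i ∈ Finset.range τ, (op P (i + s) (ek P f τ s k) y) ^ 2 ≤
        ∑ i ∈ Finset.range τ, op P (i + s) (epsk P f τ s k) y := by
      refine Finset.sum_le_sum fun i _ => ?_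
      exact (hL.sq_op (i + s) (ek P f τ s k) y).trans
        (hL.op_mono (i + s) _ _ (fun z => j1 k z) y)
    have a3 := h1 S μ P hP hL n f τ s k y
    have a4 : (∑ i ∈ Finset.range τ, op P (i + s) (ek P f τ s k) y) ^ 2 ≤
        τ * BB P f τ s y :=
      a1.trans (mul_le_mul_of_nonneg_left (a2.trans a3) hτ0)
    exact (le_abs_self _).trans (Real.abs_le_sqrt a4)
  -- (3) sum over k
  have j3 : ∑ k, av μ (fun y => om P f k y *
        ∑ i ∈ Finset.range τ, op P (i + s) (ek P f τ s k) y) ≤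
      ∑ k, av μ (fun y => om P f k y * Real.sqrt (τ * BB P f τ s y)) := by
    refine Finset.sum_le_sum fun k _ => ?_
    apply hL.av_mono
    intro y
    exact mul_le_mul_of_nonneg_left (j2 k y) (hom0 k y)
  have j4 : ∑ k, av μ (fun y => om P f k y * Real.sqrt (τ * BB P f τ s y)) =
      av μ (fun y => lbar P f y * Real.sqrt (τ * BB P f τ s y)) := by
    unfold av
    rw [Finset.sum_comm]
    refine Finset.sum_congr rfl fun y _ => ?_
    beta_reduce
    rw [← homsum y, Finset.sum_mul, Finset.mul_sum]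
  have j5 := hL.av_cs (fun y => lbar P f y) (fun y => Real.sqrt (τ * BB P f τ s y))
  have j6 : av μ (fun y => Real.sqrt (τ * BB P f τ s y) ^ 2) = τ * av μ (BB P f τ s) := by
    unfold av
    rw [Finset.mul_sum]
    refine Finset.sum_congr rfl fun y _ => ?_
    beta_reduce
    rw [Real.sq_sqrt (mul_nonneg hτ0 (hBB0 y))]
    ring
  have j7 : Real.sqrt (av μ (fun y => lbar P f y ^ 2)) ≤ Real.sqrt (U μ P f) :=
    Real.sqrt_le_sqrt hlbU
  have j8 : Real.sqrt (av μ (fun y => Real.sqrt (τ * BB P f τ s y) ^ 2)) ≤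
      Real.sqrt (5 * (τ : ℝ) ^ 3 * U μ P f) := by
    apply Real.sqrt_le_sqrt
    rw [j6]
    calc (τ : ℝ) * av μ (BB P f τ s) ≤ τ * (5 * (τ : ℝ) ^ 2 * U μ P f) :=
          mul_le_mul_of_nonneg_left hBBav hτ0
      _ = 5 * (τ : ℝ) ^ 3 * U μ P f := by ring
  have j9 : Real.sqrt (U μ P f) * Real.sqrt (5 * (τ : ℝ) ^ 3 * U μ P f) =
      Real.sqrt (5 * (τ : ℝ) ^ 3) * U μ P f := by
    rw [Real.sqrt_mul (by positivity) (U μ P f)]
    have := Real.mul_self_sqrt hU0
    calc Real.sqrt (U μ P f) * (Real.sqrt (5 * (τ : ℝ) ^ 3) * Real.sqrt (U μ P f))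
        = Real.sqrt (5 * (τ : ℝ) ^ 3) * (Real.sqrt (U μ P f) * Real.sqrt (U μ P f)) := by ring
      _ = _ := by rw [this]
  calc ∑ k, av μ (fun y => om P f k y *
        ∑ i ∈ Finset.range τ, op P (i + s) (ek P f τ s k) y)
      ≤ av μ (fun y => lbar P f y * Real.sqrt (τ * BB P f τ s y)) := by
        rw [← j4]; exact j3
    _ ≤ Real.sqrt (av μ (fun y => lbar P f y ^ 2)) *
          Real.sqrt (av μ (fun y => Real.sqrt (τ * BB P f τ s y) ^ 2)) := j5
    _ ≤ Real.sqrt (U μ P f) * Real.sqrt (5 * (τ : ℝ) ^ 3 * U μ P f) :=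
        mul_le_mul j7 j8 (Real.sqrt_nonneg _) (Real.sqrt_nonneg _)
    _ = Real.sqrt (5 * (τ : ℝ) ^ 3) * U μ P f := j9

end Vale.Agent.P125.P32
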