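import Vale.Agent.P125.P32.Glue_77
import Vale.Agent.P125.P32.Lib_66
import Vale.Agent.P125.P32.Small_93
import Vale.Agent.P125.P32.Two_10
import Vale.Agent.P125.P32.Own_33
import Vale.Agent.P125.P32.Q_64
import Vale.Agent.P125.P32.Blk_1
import Vale.Agent.P125.P32.Triv2_85
import Vale.Agent.P125.P32.Triv1_69
import Vale.Agent.P125.P32.Sqrt_33
import Vale.Agent.P125.P32.R_14
import Vale.Agent.P125.P32.Dual_51
import Vale.Agent.P125.P32.Down_73
import Vale.Agent.P125.P32.OwnT_27
import Vale.Agent.P125.P32.Back_88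
import Vale.Agent.P125.P32.Xi_87
import Vale.Agent.P125.P32.En_30
import Vale.Agent.P125.P32.BB_38
import Vale.Agent.P125.P32.Rem_32
import Vale.Agent.P125.P32.Wrap_75

namespace Vale.Agent.P125.P32

theorem stCore_32 : StCore := by
  have hLib : StLib := stLib_66
  have hSm : StSmall := stSmall_93
  have hOwn : StOwn := stOwn_33
  have hTwo : StTwo := stTwo_10 hOwn
  have hT1 : StTriv1 := stTriv1_69 hSm
  have hT2 : StTriv2 := stTriv2_85 hSm
  have hRem : StRem := stRem_32 hSm hT1
  have hSqrt : StSqrt := stSqrt_33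
  have hBlk : StBlk := stBlk_1 hLib hSm hT2 hSqrt
  have hDual : StDual := stDual_51
  have hOwnT : StOwnT := stOwnT_27 hOwn
  have hDown : StDown := stDown_73 hOwnT hSm
  have hBack : StBack := stBack_88 hSm
  have hEn : StEn := stEn_30
  have hBB : StBB := stBB_38 hSm
  have hXi : StXi := stXi_87 hSm hEn hBB
  have hR : StR := stR_14 hSm hDual hDown hBack hXi
  have hQ : StQ := stQ_64 hSm hRem hBlk hR
  exact stCore_77 hLib hTwo hQ hSm

end Vale.Agent.P125.P32
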