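import Mathlib
import Vale.Agent.P125.P32.Defs58

set_option linter.unusedSectionVars false
set_option linter.unusedVariables false

/-!
# P125 Poly: end glue (helper77) for the skeleton `Poly/Defs58.lean`

* `stCore_77 : StLib → StTwo → StQ → StSmall → StCore`
* `stQ_77 : StBlk → StRem → StR → StSmall → StQ`
* `stR_77 : StDual → StDown → StBack → StXi → StSmall → StR`
-/

namespace Vale.Agent.P125.P32

open scoped BigOperators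
open Vale.Agent.P125.Dich

/-- scalar optimisation: `τ = ⌈t^(2/3)⌉` -/
theorem scalar_77 (t : ℕ) (ht : 1 ≤ t) : ∃ τ : ℕ, 1 ≤ τ ∧
    2 * (t : ℝ) + 4 * t * (Real.sqrt (t * τ) + τ + (3 / 2) * t * (τ : ℝ) ^ (-(1 / 4) : ℝ)) ≤
      24 * (t : ℝ) ^ (11 / 6 : ℝ) := by
  have ht1 : (1 : ℝ) ≤ t := by exact_mod_cast ht
  have ht0 : (0 : ℝ) ≤ t := by linarith
  obtain ⟨x, hx⟩ : ∃ x : ℝ, x = (t : ℝ) ^ (1 / 6 : ℝ) := ⟨_, rfl⟩
  have hx1 : 1 ≤ x := by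
    rw [hx]; exact Real.one_le_rpow ht1 (by norm_num)
  have hx0 : 0 < x := by linarith
  have hx6 : x ^ 6 = t := by
    rw [hx, ← Real.rpow_natCast, ← Real.rpow_mul ht0]; norm_num
  have h11 : (t : ℝ) ^ (11 / 6 : ℝ) = x ^ 11 := by
    rw [hx, ← Real.rpow_natCast, ← Real.rpow_mul ht0]; norm_num
  have hx4 : 1 ≤ x ^ 4 := one_le_pow₀ hx1
  refine ⟨⌈x ^ 4⌉₊, ?_, ?_⟩
  · have : 0 < ⌈x ^ 4⌉₊ := Nat.ceil_pos.mpr (by linarith)
    omega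
  obtain ⟨T, hT⟩ : ∃ T : ℝ, T = ((⌈x ^ 4⌉₊ : ℕ) : ℝ) := ⟨_, rfl⟩
  rw [← hT]
  have hT1 : x ^ 4 ≤ T := by rw [hT]; exact Nat.le_ceil _
  have hT2 : T ≤ 2 * x ^ 4 := by
    have := Nat.ceil_lt_add_one (a := x ^ 4) (by positivity)
    rw [hT]; linarith
  have hT0 : 0 < T := by linarith
  have hm : T ^ (-(1 / 4) : ℝ) ≤ x⁻¹ := by
    have h1 : T ^ (-(1 / 4) : ℝ) ≤ (x ^ 4) ^ (-(1 / 4) : ℝ) :=
      Real.rpow_le_rpow_of_nonpos (by positivity) hT1 (by norm_num)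
    have h2 : (x ^ 4) ^ (-(1 / 4) : ℝ) = x⁻¹ := by
      rw [← Real.rpow_natCast x 4, ← Real.rpow_mul hx0.le, ← Real.rpow_neg_one]; norm_num
    linarith
  have hs : Real.sqrt (t * T) ≤ 3 / 2 * x ^ 5 := by
    rw [Real.sqrt_le_iff]
    refine ⟨by positivity, ?_⟩
    rw [← hx6]
    have : x ^ 6 * T ≤ x ^ 6 * (2 * x ^ 4) := mul_le_mul_of_nonneg_left hT2 (by positivity)
    nlinarith [pow_pos hx0 10]
  rw [h11, ← hx6]
  have h3 : 3 / 2 * x ^ 6 * T ^ (-(1 / 4) : ℝ) ≤ 3 / 2 * x ^ 5 := by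
    have : 3 / 2 * x ^ 6 * T ^ (-(1 / 4) : ℝ) ≤ 3 / 2 * x ^ 6 * x⁻¹ :=
      mul_le_mul_of_nonneg_left hm (by positivity)
    have h4 : 3 / 2 * x ^ 6 * x⁻¹ = 3 / 2 * x ^ 5 := by field_simp
    linarith
  have h5 : Real.sqrt (x ^ 6 * T) + T + 3 / 2 * x ^ 6 * T ^ (-(1 / 4) : ℝ) ≤
      3 * x ^ 5 + 2 * x ^ 4 := by
    rw [hx6]; rw [hx6] at h3; linarith
  have h6 : 4 * x ^ 6 * (Real.sqrt (x ^ 6 * T) + T + 3 / 2 * x ^ 6 * T ^ (-(1 / 4) : ℝ)) ≤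
      4 * x ^ 6 * (3 * x ^ 5 + 2 * x ^ 4) := mul_le_mul_of_nonneg_left h5 (by positivity)
  have h7 : x ^ 6 ≤ x ^ 11 := pow_le_pow_right₀ hx1 (by norm_num)
  have h8 : x ^ 10 ≤ x ^ 11 := pow_le_pow_right₀ hx1 (by norm_num)
  nlinarith [h6, h7, h8]

theorem stCore_77 (hLib : StLib) (hTwo : StTwo) (hQ : StQ) (hSm : StSmall) : StCore := by
  intro S _ _ μ P hc n f κ t ht
  have L := hLib S μ P hc
  have h2 := hTwo S μ P hc L n f κ t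
  obtain ⟨-, -, -, -, -, -, hU, -⟩ := hSm S μ P hc L n f
  obtain ⟨τ, hτ, hsc⟩ := scalar_77 t ht
  have hq := hQ S μ P hc L n f τ
  obtain ⟨K, hK⟩ : ∃ K : ℝ, K = Real.sqrt (t * τ) + τ + (3 / 2) * t * (τ : ℝ) ^ (-(1 / 4) : ℝ) :=
    ⟨_, rfl⟩
  have hτ0 : (0 : ℝ) ≤ (τ : ℝ) ^ (-(1 / 4) : ℝ) := Real.rpow_nonneg (by positivity) _
  have hb : ∀ r : ℕ, r ≤ t → Qsum μ P f r ≤ K * U μ P f := by
    intro r hr
    refine (hq r hτ).trans ?_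
    refine mul_le_mul_of_nonneg_right ?_ hU
    rw [hK]
    have hr' : (r : ℝ) ≤ t := by exact_mod_cast hr
    have h1 : Real.sqrt (r * τ) ≤ Real.sqrt (t * τ) :=
      Real.sqrt_le_sqrt (mul_le_mul_of_nonneg_right hr' (by positivity))
    have h3 : (3 / 2) * (r : ℝ) * (τ : ℝ) ^ (-(1 / 4) : ℝ) ≤
        (3 / 2) * (t : ℝ) * (τ : ℝ) ^ (-(1 / 4) : ℝ) :=
      mul_le_mul_of_nonneg_right (by linarith) hτ0
    linarith
  have hsum : ∑ r ∈ Finset.range t, (Qsum μ P f (t - 1 - r) + Qsum μ P f r) ≤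
      ∑ r ∈ Finset.range t, (2 * (K * U μ P f)) := by
    refine Finset.sum_le_sum fun r hr => ?_
    have hr' := Finset.mem_range.mp hr
    have := hb (t - 1 - r) (by omega)
    have := hb r (by omega)
    linarith
  rw [Finset.sum_const, Finset.card_range, nsmul_eq_mul] at hsum
  rw [← hK] at hsc
  have := mul_le_mul_of_nonneg_right hsc hU
  nlinarith [h2, hsum, this]

end Vale.Agent.P125.P32
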